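import Vale.Agent.P092.H160.Canon
import Vale.Agent.P092.H108.Iso

/-!
Assembly: the frame of an isomorphism, the ICC property of finite index subgroups of
`SL_n(ℤ)` without `-1`, and lower bounds of the fourth power sums of tight families.
-/

set_option linter.all false

open scoped InnerProductSpace
open Filter Topology ContinuousLinearMap

namespace Vale.Agent.P092.H160

section frame

variable {Γ Λ : Type} [Group Γ] [Group Λ]

theorem uu_mul (g h : Γ) : (uu (g * h) : LG Γ) = uu g * uu h := Subtype.ext (lam_mul g h)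
theorem uu_one : (uu (1 : Γ) : LG Γ) = 1 := Subtype.ext lam_one
theorem star_uu (g : Γ) : star (uu g : LG Γ) = uu g⁻¹ := Subtype.ext (star_lam g)

/-- The image of the canonical unitaries. -/
noncomputable def alphaOf (θ : LG Γ ≃⋆ₐ[ℂ] LG Λ) : Γ →* (Ell2 Λ →L[ℂ] Ell2 Λ) where
  toFun g := (θ (uu g) : Ell2 Λ →L[ℂ] Ell2 Λ)
  map_one' := by rw [uu_one, map_one]; rfl
  map_mul' g h := by rw [uu_mul, map_mul]; rfl

theorem alphaOf_apply (θ : LG Γ ≃⋆ₐ[ℂ] LG Λ) (g : Γ) :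
    alphaOf θ g = (θ (uu g) : Ell2 Λ →L[ℂ] Ell2 Λ) := rfl

theorem tr_eq (T : LG Γ) : tr T = ⟪(dl 1 : Ell2 Γ), (T : Ell2 Γ →L[ℂ] Ell2 Γ) (dl 1)⟫_ℂ := rfl

theorem norm_sq_eq_tr (T : LG Γ) :
    ((‖(T : Ell2 Γ →L[ℂ] Ell2 Γ) (dl 1)‖ ^ 2 : ℝ) : ℂ) = tr (star T * T) := by
  rw [tr_eq]
  change _ = ⟪(dl 1 : Ell2 Γ), adjoint (T : Ell2 Γ →L[ℂ] Ell2 Γ)
    ((T : Ell2 Γ →L[ℂ] Ell2 Γ) (dl 1))⟫_ℂ
  rw [adjoint_inner_right, inner_self_eq_norm_sq_to_K]
  push_cast
  rfl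

theorem theta_star (θ : LG Γ ≃⋆ₐ[ℂ] LG Λ) (T : LG Γ) : θ (star T) = star (θ T) := θ.map_star' T

theorem norm_theta (hΓ : ∀ g : Γ, g ≠ 1 → Set.Infinite {y : Γ | ∃ h, y = h * g * h⁻¹})
    (θ : LG Γ ≃⋆ₐ[ℂ] LG Λ) (T : LG Γ) :
    ‖(θ T : Ell2 Λ →L[ℂ] Ell2 Λ) (dl 1)‖ = ‖(T : Ell2 Γ →L[ℂ] Ell2 Γ) (dl 1)‖ := by
  have h1 := norm_sq_eq_tr (θ T)
  rw [← theta_star, ← map_mul, H108.tr_iso hΓ, ← norm_sq_eq_tr] at h1
  have h2 : ‖(θ T : Ell2 Λ →L[ℂ] Ell2 Λ) (dl 1)‖ ^ 2 =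
      ‖(T : Ell2 Γ →L[ℂ] Ell2 Γ) (dl 1)‖ ^ 2 := by exact_mod_cast h1
  exact (pow_left_inj₀ (norm_nonneg _) (norm_nonneg _) two_ne_zero).mp h2

/-- finite linear combinations of the canonical unitaries -/
noncomputable def fc (s : Finset Γ) (c : Γ → ℂ) : LG Γ := ∑ g ∈ s, c g • uu g

theorem fc_dl (s : Finset Γ) (c : Γ → ℂ) :
    (fc s c : Ell2 Γ →L[ℂ] Ell2 Γ) (dl 1) = ∑ g ∈ s, c g • dl g := by
  have h : (fc s c : Ell2 Γ →L[ℂ] Ell2 Γ) = ∑ g ∈ s, c g • lam g := by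
    rw [fc]
    push_cast
    rfl
  rw [h, sum_apply]
  refine Finset.sum_congr rfl fun g _ => ?_
  change c g • lam g (dl 1) = _
  rw [lam_dl, mul_one]

theorem theta_fc_dl (θ : LG Γ ≃⋆ₐ[ℂ] LG Λ) (s : Finset Γ) (c : Γ → ℂ) :
    (θ (fc s c) : Ell2 Λ →L[ℂ] Ell2 Λ) (dl 1) = ∑ g ∈ s, c g • alphaOf θ g (dl 1) := by
  have h : (θ (fc s c) : Ell2 Λ →L[ℂ] Ell2 Λ) = ∑ g ∈ s, c g • alphaOf θ g := by
    rw [fc, map_sum]
    push_cast
    refine Finset.sum_congr rfl fun g _ => ?_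
    rw [map_smul]
    rfl
  rw [h, sum_apply]
  rfl

/-- The frame of an isomorphism. -/
theorem frame_of_iso (hΓ : ∀ g : Γ, g ≠ 1 → Set.Infinite {y : Γ | ∃ h, y = h * g * h⁻¹})
    (θ : LG Γ ≃⋆ₐ[ℂ] LG Λ) : Frame (alphaOf θ) where
  comm g s := LG_comm_rho (θ (uu g)).2 s
  reg :=
    { adj := fun g => by
        rw [alphaOf_apply, alphaOf_apply, ← star_uu, theta_star]
        rfl
      norm_one := norm_dl 1
      inner_zero := fun g hg => by
        have h1 := H108.tr_iso hΓ θ (uu g)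
        rw [tr_eq, tr_eq] at h1
        rw [alphaOf_apply, h1]
        change ⟪(dl 1 : Ell2 Γ), lam g (dl 1)⟫_ℂ = 0
        rw [lam_dl, mul_one, inner_dl, dl_ne (Ne.symm hg)]
      total := fun v hv => by
        refine eq_zero_of_inner_dl fun s => ?_
        set a : LG Γ := θ.symm (uu s) with ha
        have ha' : θ a = uu s := θ.apply_symm_apply _
        set c : Γ → ℂ := fun g => (a : Ell2 Γ →L[ℂ] Ell2 Γ) (dl 1) g with hc
        have h0 : ∀ t : Finset Γ, ⟪(θ (fc t c) : Ell2 Λ →L[ℂ] Ell2 Λ) (dl 1), v⟫_ℂ = 0 := by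
          intro t
          rw [theta_fc_dl, sum_inner]
          refine Finset.sum_eq_zero fun g _ => ?_
          rw [inner_smul_left, hv g, mul_zero]
        have h1 : ∀ t : Finset Γ, ‖(dl s : Ell2 Λ) -
            (θ (fc t c) : Ell2 Λ →L[ℂ] Ell2 Λ) (dl 1)‖ =
            ‖(a : Ell2 Γ →L[ℂ] Ell2 Γ) (dl 1) - ∑ g ∈ t, c g • dl g‖ := by
          intro t
          have h2 := norm_theta hΓ θ (a - fc t c)
          rw [map_sub, ha'] at h2
          have h3 : ((uu s - θ (fc t c) : LG Λ) : Ell2 Λ →L[ℂ] Ell2 Λ) (dl 1) =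
              (dl s : Ell2 Λ) - (θ (fc t c) : Ell2 Λ →L[ℂ] Ell2 Λ) (dl 1) := by
            change lam s (dl 1) - (θ (fc t c) : Ell2 Λ →L[ℂ] Ell2 Λ) (dl 1) = _
            rw [lam_dl, mul_one]
          have h4 : ((a - fc t c : LG Γ) : Ell2 Γ →L[ℂ] Ell2 Γ) (dl 1) =
              (a : Ell2 Γ →L[ℂ] Ell2 Γ) (dl 1) - ∑ g ∈ t, c g • dl g := by
            rw [← fc_dl]
            rfl
          rw [h3, h4] at h2
          exact h2
        by_contra hne
        have h5 := hasSum_dl ((a : Ell2 Γ →L[ℂ] Ell2 Γ) (dl 1))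
        have hpos : 0 < ‖v s‖ / (‖v‖ + 1) := by
          have : 0 < ‖v s‖ := norm_pos_iff.mpr hne
          positivity
        have h6 := h5.eventually (Metric.ball_mem_nhds _ hpos)
        obtain ⟨t, ht⟩ := h6.exists
        have h7 : ‖(a : Ell2 Γ →L[ℂ] Ell2 Γ) (dl 1) - ∑ g ∈ t, c g • dl g‖ <
            ‖v s‖ / (‖v‖ + 1) := by
          rw [← dist_eq_norm, dist_comm]
          exact ht
        rw [← h1] at h7
        have h8 : v s = ⟪(dl s : Ell2 Λ) - (θ (fc t c) : Ell2 Λ →L[ℂ] Ell2 Λ) (dl 1), v⟫_ℂ := by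
          rw [inner_sub_left, h0, sub_zero, inner_dl]
        have h9 : ‖v s‖ ≤ ‖v s‖ / (‖v‖ + 1) * ‖v‖ := by
          conv_lhs => rw [h8]
          refine (norm_inner_le_norm _ _).trans ?_
          gcongr
        have h10 : 0 < ‖v s‖ := norm_pos_iff.mpr hne
        have h11 : ‖v s‖ / (‖v‖ + 1) * ‖v‖ < ‖v s‖ := by
          rw [div_mul_eq_mul_div, div_lt_iff₀ (by positivity)]
          nlinarith [norm_nonneg v]
        linarith }

/-- Canonicity of the isomorphism from the canonical form of the frame. -/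
theorem canonical_of_form (θ : LG Γ ≃⋆ₐ[ℂ] LG Λ)
    (h : ∃ (V : Ell2 Λ →L[ℂ] Ell2 Λ) (δ : Γ ≃* Λ) (χ : Γ →* Circle), Cmm rhoH V ∧
      adjoint V * V = 1 ∧ V * adjoint V = 1 ∧
      ∀ g, alphaOf θ g = (χ g : ℂ) • (V * lam (δ g) * adjoint V)) : Canonical θ := by
  obtain ⟨V, δ, χ, hV, h1, h2, h3⟩ := h
  have hVm : V ∈ LG Λ := mem_LG_of_cmm hV
  refine ⟨δ, χ, ⟨⟨V, hVm⟩, ?_⟩, fun g => Subtype.ext ?_⟩
  · rw [Unitary.mem_iff]
    exact ⟨Subtype.ext h1, Subtype.ext h2⟩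
  · exact h3 g

end frame

section icc

open Matrix

theorem icc_of_fi {n : ℕ} (hn : 2 ≤ n) (Γ : Subgroup (SpecialLinearGroup (Fin n) ℤ))
    [Γ.FiniteIndex] (hΓ : ∀ g ∈ Γ, (g : Matrix (Fin n) (Fin n) ℤ) ≠ -1) (g : Γ) (hg : g ≠ 1) :
    Set.Infinite {y : Γ | ∃ h, y = h * g * h⁻¹} := by
  intro hfin
  have hcomm : ∀ i j : Fin n, i ≠ j → ∃ c : ℤ, c ≠ 0 ∧
      (g : Matrix (Fin n) (Fin n) ℤ) * transvection i j c =
        transvection i j c * (g : Matrix (Fin n) (Fin n) ℤ) := by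
    intro i j hij
    obtain ⟨E, hE⟩ : ∃ E : SpecialLinearGroup (Fin n) ℤ,
        (E : Matrix (Fin n) (Fin n) ℤ) = transvection i j 1 :=
      ⟨⟨transvection i j 1, by simp [hij]⟩, rfl⟩
    have hEk : ∀ k : ℕ, ((E ^ k : SpecialLinearGroup (Fin n) ℤ) : Matrix (Fin n) (Fin n) ℤ) =
        transvection i j (k : ℤ) := by
      intro k
      induction k with
      | zero => 
        rw [Nat.cast_zero, transvection_zero]
        rfl
      | succ k ih =>
        have e : ((E ^ (k + 1) : SpecialLinearGroup (Fin n) ℤ) : Matrix (Fin n) (Fin n) ℤ) =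
          ((E ^ k : SpecialLinearGroup (Fin n) ℤ) : Matrix (Fin n) (Fin n) ℤ) *
          (E : Matrix (Fin n) (Fin n) ℤ) := by rw [pow_succ]; rfl
        rw [e, ih, hE, transvection_mul_transvection_same _ _ hij]
        push_cast
        rfl
    obtain ⟨d, hd0, -, hd⟩ := Subgroup.exists_pow_mem_of_index_ne_zero
      (Subgroup.FiniteIndex.index_ne_zero (H := Γ)) E
    set h : ℕ → Γ := fun k => ⟨E ^ d, hd⟩ ^ k with hh
    have hmaps : ∀ k : ℕ, h k * g * (h k)⁻¹ ∈ {y : Γ | ∃ h, y = h * g * h⁻¹} := fun k => ⟨_, rfl⟩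
    obtain ⟨k, -, l, -, hkl, heq⟩ := Set.infinite_univ.exists_ne_map_eq_of_mapsTo
      (f := fun k : ℕ => h k * g * (h k)⁻¹) (fun k _ => hmaps k) hfin
    wlog hlt : k < l generalizing k l
    · exact this l k hkl.symm heq.symm (lt_of_le_of_ne (not_lt.mp hlt) hkl.symm)
    obtain ⟨m, hm0, rfl⟩ : ∃ m, 0 < m ∧ l = k + m := ⟨l - k, by omega, by omega⟩
    have h1 : g * h m = h m * g := by
      have h2 : h (k + m) = h k * h m := pow_add _ _ _
      change h k * g * (h k)⁻¹ = h (k + m) * g * (h (k + m))⁻¹ at heq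
      rw [h2] at heq
      have h3 : g = h m * g * (h m)⁻¹ := by
        have h4 : (h k)⁻¹ * (h k * g * (h k)⁻¹) * h k =
            (h k)⁻¹ * (h k * h m * g * (h k * h m)⁻¹) * h k := by rw [heq]
        have h5 : (h k)⁻¹ * (h k * g * (h k)⁻¹) * h k = g := by group
        have h6 : (h k)⁻¹ * (h k * h m * g * (h k * h m)⁻¹) * h k = h m * g * (h m)⁻¹ := by group
        rw [h5, h6] at h4
        exact h4
      calc g * h m = (h m * g * (h m)⁻¹) * h m := by rw [← h3]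
        _ = h m * g := by group
    refine ⟨((d * m : ℕ) : ℤ), by positivity, ?_⟩
    have h5 : ((g : SpecialLinearGroup (Fin n) ℤ) : Matrix (Fin n) (Fin n) ℤ) *
        ((h m : SpecialLinearGroup (Fin n) ℤ) : Matrix (Fin n) (Fin n) ℤ) =
        ((h m : SpecialLinearGroup (Fin n) ℤ) : Matrix (Fin n) (Fin n) ℤ) *
        ((g : SpecialLinearGroup (Fin n) ℤ) : Matrix (Fin n) (Fin n) ℤ) :=
      congrArg (fun y : Γ => ((y : SpecialLinearGroup (Fin n) ℤ) :
        Matrix (Fin n) (Fin n) ℤ)) h1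
    have h6 : ((h m : SpecialLinearGroup (Fin n) ℤ) : Matrix (Fin n) (Fin n) ℤ) =
        transvection i j ((d * m : ℕ) : ℤ) := by
      rw [← hEk, pow_mul]
      rfl
    rw [h6] at h5
    exact h5
  -- `g` is scalar
  set A : Matrix (Fin n) (Fin n) ℤ := (g : Matrix (Fin n) (Fin n) ℤ) with hA
  have hsc : ∀ i j : Fin n, i ≠ j → A i i = A j j ∧ A j i = 0 := by
    intro i j hij
    obtain ⟨c, hc, h1⟩ := hcomm i j hij
    rw [transvection, mul_add, add_mul, mul_one, one_mul, add_right_inj] at h1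
    constructor
    · have h2 := congrFun (congrFun h1 i) j
      simp only [Matrix.mul_single_apply_same, Matrix.single_mul_apply_same] at h2
      rw [mul_comm] at h2
      exact mul_left_cancel₀ hc h2
    · have h2 := congrFun (congrFun h1 j) j
      rw [Matrix.mul_single_apply_same, Matrix.single_mul_apply_of_ne _ _ _ _ _ (Ne.symm hij)] at h2
      exact (mul_eq_zero.mp h2).resolve_right hc
  have h00 : A = A ⟨0, by omega⟩ ⟨0, by omega⟩ • (1 : Matrix (Fin n) (Fin n) ℤ) := by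
    ext i j
    rw [Matrix.smul_apply, Matrix.one_apply, smul_eq_mul]
    split_ifs with hij
    · subst hij
      rw [mul_one]
      by_cases h0 : i = ⟨0, by omega⟩
      · rw [h0]
      · exact (hsc i _ h0).1
    · rw [mul_zero]
      exact (hsc j i (Ne.symm hij)).2
  have hdet : A.det = 1 := (g : SpecialLinearGroup (Fin n) ℤ).2
  rw [h00, Matrix.det_smul, Matrix.det_one, mul_one, Fintype.card_fin] at hdet
  have hunit : IsUnit (A ⟨0, by omega⟩ ⟨0, by omega⟩) :=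
    IsUnit.of_pow_eq_one hdet (by omega)
  rcases Int.isUnit_iff.mp hunit with h1 | h1
  · apply hg
    apply Subtype.ext
    apply Subtype.ext
    change A = 1
    rw [h00, h1, one_smul]
  · apply hΓ _ g.2
    change A = -1
    rw [h00, h1, neg_smul, one_smul]

end icc

end Vale.Agent.P092.H160
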