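import Vale.Agent.P092.H160.Defs

/-!
Basic facts on `ℓ²(X)`, the regular representations and operators given by Bessel families.
-/

open scoped InnerProductSpace
open Filter Topology

namespace Vale.Agent.P092.H160

variable {X Y Z : Type}

/-! ### Basis vectors and norms -/

theorem dl_apply [DecidableEq X] (x y : X) :
    (dl x : Ell2 X) y = if y = x then 1 else 0 := by
  simp only [dl, lp.coeFn_single, Pi.single_apply]
  congr

theorem dl_self (x : X) : (dl x : Ell2 X) x = 1 := by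
  classical
  rw [dl_apply, if_pos rfl]

theorem dl_ne {x y : X} (h : y ≠ x) : (dl x : Ell2 X) y = 0 := by
  classical
  rw [dl_apply, if_neg h]

theorem inner_dl (x : X) (ξ : Ell2 X) : ⟪dl x, ξ⟫_ℂ = ξ x := by
  classical
  rw [dl, lp.inner_single_left]
  simp

theorem inner_dl_right (x : X) (ξ : Ell2 X) :
    ⟪ξ, dl x⟫_ℂ = (starRingEnd ℂ) (ξ x) := by
  rw [← inner_conj_symm, inner_dl]

theorem norm_dl (x : X) : ‖(dl x : Ell2 X)‖ = 1 := by
  classical
  rw [dl, lp.norm_single (by norm_num)]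
  simp

theorem summable_sq (ξ : Ell2 X) : Summable fun x => ‖ξ x‖ ^ 2 := by
  have h := lp.memℓp ξ
  rw [memℓp_gen_iff (by norm_num)] at h
  simpa using h

theorem norm_sq (ξ : Ell2 X) : ‖ξ‖ ^ 2 = ∑' x, ‖ξ x‖ ^ 2 := by
  have h := lp.norm_rpow_eq_tsum (p := 2) (by norm_num) ξ
  simpa using h

theorem memlp_of_summable {f : X → ℂ} (h : Summable fun x => ‖f x‖ ^ 2) :
    Memℓp f 2 := by
  rw [memℓp_gen_iff (by norm_num)]
  simpa using h

/-- Vector of `ℓ²(X)` from a square summable function. -/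
noncomputable def mk2 (f : X → ℂ) (h : Summable fun x => ‖f x‖ ^ 2) : Ell2 X :=
  ⟨f, memlp_of_summable h⟩

@[simp] theorem mk2_apply (f : X → ℂ) (h : Summable fun x => ‖f x‖ ^ 2) (x : X) :
    mk2 f h x = f x := rfl

theorem sum_sq_le (ξ : Ell2 X) (s : Finset X) : ∑ x ∈ s, ‖ξ x‖ ^ 2 ≤ ‖ξ‖ ^ 2 := by
  rw [norm_sq]
  exact (summable_sq ξ).sum_le_tsum s (fun _ _ => by positivity)

theorem norm_coord_le (ξ : Ell2 X) (x : X) : ‖ξ x‖ ≤ ‖ξ‖ :=
  lp.norm_apply_le_norm (by norm_num) ξ x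

theorem inner_eq (ξ η : Ell2 X) : ⟪ξ, η⟫_ℂ = ∑' x, η x * (starRingEnd ℂ) (ξ x) := by
  rw [lp.inner_eq_tsum]
  rfl

theorem hasSum_inner' (ξ η : Ell2 X) :
    HasSum (fun x => η x * (starRingEnd ℂ) (ξ x)) ⟪ξ, η⟫_ℂ := by
  have := lp.hasSum_inner (𝕜 := ℂ) ξ η
  exact this

theorem hasSum_dl (ξ : Ell2 X) : HasSum (fun x => ξ x • dl x) ξ := by
  classical
  have h := lp.hasSum_single (p := 2) (by norm_num) ξ
  convert h using 2 with x
  ext y
  by_cases hy : y = x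
  · subst hy
    simp [dl]
  · simp [dl, lp.coeFn_single, Pi.single_apply, hy]

theorem ext_inner_dl {ξ η : Ell2 X} (h : ∀ x, ξ x = η x) : ξ = η := by
  ext x
  exact h x

section ops

variable {F : Type} [NormedAddCommGroup F] [InnerProductSpace ℂ F]

theorem op_ext {S T : Ell2 X →L[ℂ] F} (h : ∀ x, S (dl x) = T (dl x)) : S = T := by
  ext1 ξ
  have h1 := (hasSum_dl ξ).mapL S
  have h2 := (hasSum_dl ξ).mapL T
  simp only [map_smul, h] at h1 h2
  exact h1.unique h2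

theorem eq_zero_of_inner_dl {ξ : Ell2 X} (h : ∀ x, ξ x = 0) : ξ = 0 := by
  ext x; rw [h x]; rfl

/-- A family of vectors with `∑ |⟨f x, v⟩|² ≤ C² ‖v‖²`. -/
def Bes (C : ℝ) (f : X → F) : Prop :=
  ∀ (s : Finset X) (v : F), ∑ x ∈ s, ‖⟪f x, v⟫_ℂ‖ ^ 2 ≤ C ^ 2 * ‖v‖ ^ 2

theorem Bes.summable {C : ℝ} {f : X → F} (h : Bes C f) (v : F) :
    Summable fun x => ‖⟪f x, v⟫_ℂ‖ ^ 2 :=
  summable_of_sum_le (fun _ => by positivity) (fun s => h s v)

/-- The analysis operator of a Bessel family. -/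
noncomputable def anOp {C : ℝ} {f : X → F} (h : Bes C f) : F →L[ℂ] Ell2 X :=
  LinearMap.mkContinuous
    { toFun := fun v => mk2 (fun x => ⟪f x, v⟫_ℂ) (h.summable v)
      map_add' := fun u v => by
        apply ext_inner_dl
        intro x
        change ⟪f x, u + v⟫_ℂ = ⟪f x, u⟫_ℂ + ⟪f x, v⟫_ℂ
        rw [inner_add_right]
      map_smul' := fun c v => by
        apply ext_inner_dl
        intro x
        change ⟪f x, c • v⟫_ℂ = c * ⟪f x, v⟫_ℂ
        rw [inner_smul_right] }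
    |C| (fun v => by
      refine abs_le_of_sq_le_sq' ?_ (by positivity) |>.2
      rw [norm_sq, mul_pow, sq_abs]
      exact (h.summable v).tsum_le_of_sum_le (fun s => h s v))

theorem anOp_apply {C : ℝ} {f : X → F} (h : Bes C f) (v : F) (x : X) :
    anOp h v x = ⟪f x, v⟫_ℂ := rfl

variable [CompleteSpace F]

/-- The synthesis operator of a Bessel family: `δ_x ↦ f x`. -/
noncomputable def opOf {C : ℝ} {f : X → F} (h : Bes C f) : Ell2 X →L[ℂ] F :=
  ContinuousLinearMap.adjoint (anOp h)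

theorem opOf_dl {C : ℝ} {f : X → F} (h : Bes C f) (x : X) : opOf h (dl x) = f x := by
  refine ext_inner_right ℂ fun v => ?_
  rw [opOf, ContinuousLinearMap.adjoint_inner_left, inner_dl, anOp_apply]

theorem norm_opOf_le {C : ℝ} {f : X → F} (h : Bes C f) : ‖opOf h‖ ≤ |C| := by
  rw [opOf, LinearIsometryEquiv.norm_map]
  exact LinearMap.mkContinuous_norm_le _ (abs_nonneg C) _

theorem bes_of_op (T : Ell2 X →L[ℂ] F) : Bes ‖T‖ (fun x => T (dl x)) := by
  intro s v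
  have h : ∀ x, ⟪T (dl x), v⟫_ℂ = ContinuousLinearMap.adjoint T v x := fun x => by
    rw [← ContinuousLinearMap.adjoint_inner_right, inner_dl]
  simp only [h]
  refine (sum_sq_le _ s).trans ?_
  rw [← mul_pow]
  have h2 : ‖ContinuousLinearMap.adjoint T v‖ ≤ ‖T‖ * ‖v‖ := by
    have := (ContinuousLinearMap.adjoint T).le_opNorm v
    rwa [LinearIsometryEquiv.norm_map] at this
  gcongr

theorem Bes.mono {C D : ℝ} {f : X → F} (h : Bes C f) (hC : 0 ≤ C) (hCD : C ≤ D) : Bes D f := by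
  intro s v
  refine (h s v).trans ?_
  gcongr

end ops

/-! ### Reindexing operators -/

theorem norm_rei (e : X ≃ Y) (ξ : Ell2 X) : ‖rei e ξ‖ = ‖ξ‖ := by
  have h : ‖rei e ξ‖ ^ 2 = ‖ξ‖ ^ 2 := by
    rw [norm_sq, norm_sq]
    exact Equiv.tsum_eq e.symm (fun h => ‖ξ h‖ ^ 2)
  exact (pow_left_inj₀ (norm_nonneg _) (norm_nonneg _) two_ne_zero).mp h

theorem inner_rei (e : X ≃ Y) (ξ η : Ell2 X) : ⟪rei e ξ, rei e η⟫_ℂ = ⟪ξ, η⟫_ℂ := by
  rw [lp.inner_eq_tsum, lp.inner_eq_tsum]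
  simp only [rei_apply]
  exact Equiv.tsum_eq e.symm (fun h => ⟪ξ h, η h⟫_ℂ)

theorem rei_rei (e : X ≃ Y) (f : Y ≃ Z) (ξ : Ell2 X) : rei f (rei e ξ) = rei (e.trans f) ξ := rfl

theorem rei_refl (ξ : Ell2 X) : rei (Equiv.refl X) ξ = ξ := rfl

theorem rei_mul (e f : Equiv.Perm X) : rei (e * f) = rei e * rei f := by
  ext ξ h
  rfl

theorem rei_one : rei (1 : Equiv.Perm X) = 1 := by
  ext ξ h
  rfl

theorem adjoint_rei (e : X ≃ Y) : ContinuousLinearMap.adjoint (rei e) = rei e.symm := by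
  rw [eq_comm, ContinuousLinearMap.eq_adjoint_iff]
  intro x y
  have h : rei e (rei e.symm x) = x := by
    rw [rei_rei, Equiv.symm_trans_self, rei_refl]
  rw [← inner_rei e, h]

theorem rei_dl (e : X ≃ Y) (x : X) : rei e (dl x) = dl (e x) := by
  classical
  ext h
  rw [rei_apply, dl_apply, dl_apply]
  congr 1
  rw [eq_iff_iff]
  exact Equiv.symm_apply_eq e

/-! ### The regular representations -/

section reg

variable {G : Type} [Group G]

theorem lam_mul (g h : G) : lam (g * h) = lam g * lam h := by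
  rw [lam, lam, lam, ← rei_mul]
  congr 1
  ext x
  simp

theorem lam_one : lam (1 : G) = 1 := by
  rw [lam, ← rei_one]
  congr 1
  ext x
  simp

theorem star_lam (g : G) : star (lam g) = lam g⁻¹ := by
  rw [lam, lam, ContinuousLinearMap.star_eq_adjoint, adjoint_rei]
  congr 1
  ext x
  simp

theorem lam_dl (g h : G) : lam g (dl h) = dl (g * h) := by
  rw [lam, rei_dl]; rfl

/-- The right regular representation `(ρ(g) ξ)(h) = ξ(h g)`. -/
noncomputable def rho (g : G) : Ell2 G →L[ℂ] Ell2 G := rei (Equiv.mulRight g⁻¹)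

theorem rho_apply (g : G) (ξ : Ell2 G) (h : G) : rho g ξ h = ξ (h * g) := by
  change ξ (h * g⁻¹⁻¹) = _
  rw [inv_inv]

theorem rho_dl (g h : G) : rho g (dl h) = dl (h * g⁻¹) := by
  rw [rho, rei_dl]; rfl

theorem rho_mul (g h : G) : rho (g * h) = rho g * rho h := by
  rw [rho, rho, rho, ← rei_mul]
  congr 1
  ext x
  simp [mul_assoc]

theorem rho_one : rho (1 : G) = 1 := by
  rw [rho, ← rei_one]
  congr 1
  ext x
  simp

theorem star_rho (g : G) : star (rho g) = rho g⁻¹ := by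
  rw [rho, rho, ContinuousLinearMap.star_eq_adjoint, adjoint_rei]
  congr 1
  ext x
  simp

theorem adjoint_rho (g : G) : ContinuousLinearMap.adjoint (rho g) = rho g⁻¹ := by
  rw [← ContinuousLinearMap.star_eq_adjoint, star_rho]

theorem adjoint_lam (g : G) : ContinuousLinearMap.adjoint (lam g) = lam g⁻¹ := by
  rw [← ContinuousLinearMap.star_eq_adjoint, star_lam]

theorem dl_eq_rho (g : G) : (dl g : Ell2 G) = rho g⁻¹ (dl 1) := by
  rw [rho_dl, one_mul, inv_inv]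

theorem dl_eq_lam (g : G) : (dl g : Ell2 G) = lam g (dl 1) := by
  rw [lam_dl, mul_one]

theorem norm_rho (g : G) (ξ : Ell2 G) : ‖rho g ξ‖ = ‖ξ‖ := norm_rei _ _
theorem norm_lam (g : G) (ξ : Ell2 G) : ‖lam g ξ‖ = ‖ξ‖ := norm_rei _ _
theorem inner_rho (g : G) (ξ η : Ell2 G) : ⟪rho g ξ, rho g η⟫_ℂ = ⟪ξ, η⟫_ℂ := inner_rei _ _ _
theorem inner_lam (g : G) (ξ η : Ell2 G) : ⟪lam g ξ, lam g η⟫_ℂ = ⟪ξ, η⟫_ℂ := inner_rei _ _ _

theorem rho_lam (g h : G) : rho g * lam h = lam h * rho g := by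
  rw [rho, lam, ← rei_mul, ← rei_mul]
  congr 1
  ext x
  simp [mul_assoc]

theorem rho_mem_centralizer (g : G) :
    rho g ∈ StarSubalgebra.centralizer ℂ (Set.range (lam (G := G))) := by
  rw [StarSubalgebra.mem_centralizer_iff]
  rintro _ ⟨h, rfl⟩
  rw [star_lam]
  exact ⟨(rho_lam g h).symm, (rho_lam g h⁻¹).symm⟩

theorem LG_comm_rho {T : Ell2 G →L[ℂ] Ell2 G} (hT : T ∈ LG G) (g : G) :
    T * rho g = rho g * T := by
  rw [LG, vNA, StarSubalgebra.mem_centralizer_iff] at hT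
  exact ((hT (rho g) (rho_mem_centralizer g)).1).symm

end reg

end Vale.Agent.P092.H160
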