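import Vale.Agent.P092.H160.Defs

/-!
Definitions used in the statements for P092, in elementary form.
-/

namespace Vale.Agent.P092.H160.St

/-- Bounded operators on `ℓ²(X)`. -/
abbrev Op (X : Type) : Type := Ell2 X →L[ℂ] Ell2 X

variable {X : Type}

/-- The value `T ξ`. -/
noncomputable def ap (T : Op X) (ξ : Ell2 X) : Ell2 X := T ξ

/-- The composition `S T`. -/
noncomputable def mul (S T : Op X) : Op X := S.comp T

/-- The sum `S + T`. -/
noncomputable def add (S T : Op X) : Op X := S + T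

/-- `T` is the multiple `c S`. -/
def IsSmul (c : ℂ) (S T : Op X) : Prop := ∀ ξ : Ell2 X, ap T ξ = c • ap S ξ

/-- The inner product of `ℓ²(X)` (linear on the right). -/
noncomputable def ip (ξ η : Ell2 X) : ℂ := inner ℂ ξ η

/-- `T` is the adjoint `S*` of `S`. -/
def IsAdj (S T : Op X) : Prop := ∀ ξ η : Ell2 X, ip (ap S ξ) η = ip ξ (ap T η)

/-- The left regular unitary `(λ(g) ξ)(h) = ξ(g⁻¹ h)`. -/
noncomputable def u {G : Type} [Group G] (g : G) : Op G := lam g

/-- Membership in `L(G) = λ(G)''`. -/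
def InL {G : Type} [Group G] (T : Op G) : Prop :=
  ∀ S : Op G, (∀ g : G, mul S (u g) = mul (u g) S) → mul T S = mul S T

/-- The canonical trace `τ(T) = ⟨T δ_e, δ_e⟩`. -/
noncomputable def tr {G : Type} [Group G] (T : Op G) : ℂ := ip (dl 1) (ap T (dl 1))

/-- The height: the supremum over `s` of `|τ(T u_s*)|`. -/
noncomputable def height {G : Type} [Group G] (T : Op G) : ℝ :=
  ⨆ s : G, ‖tr (mul T (u s⁻¹))‖

/-- A `*`-isomorphism from `L(Γ)` onto `L(Λ)`. -/
structure StarIso (Γ Λ : Type) [Group Γ] [Group Λ] where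
  /-- the map (only its values on `L(Γ)` matter) -/
  toFun : Op Γ → Op Λ
  /-- the inverse map (only its values on `L(Λ)` matter) -/
  invFun : Op Λ → Op Γ
  map_mem : ∀ T, InL T → InL (toFun T)
  inv_mem : ∀ T, InL T → InL (invFun T)
  left_inv : ∀ T, InL T → invFun (toFun T) = T
  right_inv : ∀ T, InL T → toFun (invFun T) = T
  map_add : ∀ S T, InL S → InL T → toFun (add S T) = add (toFun S) (toFun T)
  map_smul : ∀ c S T, InL S → InL T → IsSmul c S T → IsSmul c (toFun S) (toFun T)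
  map_mul : ∀ S T, InL S → InL T → toFun (mul S T) = mul (toFun S) (toFun T)
  map_adj : ∀ S T, InL S → InL T → IsAdj S T → IsAdj (toFun S) (toFun T)

/-- `θ` is canonical: `θ(u_g) = χ(g) w v_{δ(g)} w*` for a group isomorphism `δ : Γ → Λ`, a
character `χ : Γ → 𝕋` and a unitary `w ∈ L(Λ)` (with inverse and adjoint `w'`). -/
def Canonical {Γ Λ : Type} [Group Γ] [Group Λ] (θ : StarIso Γ Λ) : Prop :=
  ∃ (δ : Γ ≃* Λ) (χ : Γ →* Circle) (w w' : Op Λ), InL w ∧ IsAdj w w' ∧ mul w w' = u 1 ∧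
    mul w' w = u 1 ∧ ∀ g : Γ, IsSmul (χ g) (mul (mul w (u (δ g))) w') (θ.toFun (u g))

end Vale.Agent.P092.H160.St
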