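import Vale.Agent.P092.H160.Main
import Vale.Agent.P092.H160.StDefs

/-!
From the elementary form of a `*`-isomorphism `L(Γ) → L(Λ)` to Mathlib's `≃⋆ₐ`.
-/

set_option linter.all false

open scoped InnerProductSpace
open Filter Topology ContinuousLinearMap

namespace Vale.Agent.P092.H160

variable {G : Type} [Group G]

theorem st_mul (S T : St.Op G) : St.mul S T = S * T := rfl
theorem st_add (S T : St.Op G) : St.add S T = S + T := rfl
theorem isSmul_iff (c : ℂ) (S T : St.Op G) : St.IsSmul c S T ↔ T = c • S := by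
  constructor
  · intro h
    ext1 ξ
    exact h ξ
  · rintro rfl ξ
    rfl
theorem isAdj_iff (S T : St.Op G) : St.IsAdj S T ↔ T = star S := by
  constructor
  · intro h
    rw [star_eq_adjoint, eq_comm]
    have h2 := (ContinuousLinearMap.eq_adjoint_iff S T).mpr h
    rw [h2, adjoint_adjoint]
  · rintro rfl ξ η
    change ⟪S ξ, η⟫_ℂ = ⟪ξ, star S η⟫_ℂ
    rw [star_eq_adjoint, adjoint_inner_right]
theorem st_u (g : G) : St.u g = lam g := rfl

theorem inL_iff (T : St.Op G) : St.InL T ↔ T ∈ LG G := by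
  rw [mem_LG_iff]
  constructor
  · intro h s
    exact h (rho s) fun g => rho_lam s g
  · intro h S hS
    have hc : ∀ g s : G, lamH g * rhoH s = rhoH s * lamH g := fun g s => (rho_lam s g).symm
    exact RegRep.commute regRep_lam regRep_rho hc h hS

variable {Γ Λ : Type} [Group Γ] [Group Λ]

/-- The `≃⋆ₐ` attached to an elementary `*`-isomorphism. -/
noncomputable def toAlg (θ : St.StarIso Γ Λ) : LG Γ ≃⋆ₐ[ℂ] LG Λ where
  toFun T := ⟨θ.toFun T.1, (inL_iff _).mp (θ.map_mem _ ((inL_iff _).mpr T.2))⟩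
  invFun T := ⟨θ.invFun T.1, (inL_iff _).mp (θ.inv_mem _ ((inL_iff _).mpr T.2))⟩
  left_inv T := Subtype.ext (θ.left_inv _ ((inL_iff _).mpr T.2))
  right_inv T := Subtype.ext (θ.right_inv _ ((inL_iff _).mpr T.2))
  map_mul' S T := Subtype.ext (θ.map_mul _ _ ((inL_iff _).mpr S.2) ((inL_iff _).mpr T.2))
  map_add' S T := Subtype.ext (θ.map_add _ _ ((inL_iff _).mpr S.2) ((inL_iff _).mpr T.2))
  map_star' T := Subtype.ext ((isAdj_iff _ _).mp (θ.map_adj _ _ ((inL_iff _).mpr T.2)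
    ((inL_iff _).mpr (star T).2) ((isAdj_iff _ _).mpr rfl)))
  map_smul' c T := Subtype.ext ((isSmul_iff _ _ _).mp (θ.map_smul c _ _ ((inL_iff _).mpr T.2)
    ((inL_iff _).mpr (c • T).2) ((isSmul_iff _ _ _).mpr rfl)))

theorem toAlg_uu (θ : St.StarIso Γ Λ) (g : Γ) :
    ((toAlg θ (uu g) : LG Λ) : Ell2 Λ →L[ℂ] Ell2 Λ) = θ.toFun (St.u g) := rfl

theorem canonical_iff (θ : St.StarIso Γ Λ) (h : Canonical (toAlg θ)) : St.Canonical θ := by
  obtain ⟨δ, χ, w, hw⟩ := h
  have hu := Unitary.mem_iff.mp w.2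
  refine ⟨δ, χ, ((w : LG Λ) : Ell2 Λ →L[ℂ] Ell2 Λ),
    star ((w : LG Λ) : Ell2 Λ →L[ℂ] Ell2 Λ), (inL_iff _).mpr (w : LG Λ).2, (isAdj_iff _ _).mpr rfl,
    ?_, ?_, fun g => ?_⟩
  · have := congrArg Subtype.val hu.2
    rw [st_u, lam_one]
    exact this
  · have := congrArg Subtype.val hu.1
    rw [st_u, lam_one]
    exact this
  · exact (isSmul_iff _ _ _).mpr (congrArg Subtype.val (hw g))

theorem st_height (T : LG Λ) : St.height (T : Ell2 Λ →L[ℂ] Ell2 Λ) = height T := by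
  unfold St.height height
  congr 1
  funext s
  congr 1
  rw [tr_eq, star_uu]
  rfl

end Vale.Agent.P092.H160
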