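import Vale.Agent.P092.H160.Eig

/-!
If `∑_s |(α(g) δ_e)(s)|^4` is bounded below, the frame `α` is canonical.
-/

set_option linter.all false

open scoped InnerProductSpace
open Filter Topology ContinuousLinearMap

namespace Vale.Agent.P092.H160

variable {Γ Λ : Type} [Group Γ] [Group Λ] {α : Γ →* (Ell2 Λ →L[ℂ] Ell2 Λ)}
  {T : Ell2 Λ →L[ℂ] Ell2 (Λ × Λ × Λ)}

theorem Lop_dl (hT : Sym T) (d : Λ) : Lop T 1 1 (dl d) = sl (sl (T (dl 1)) 1) d := by
  apply ext_inner_dl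
  intro a
  rw [Lop_apply, hT.ac]
  rfl

theorem compact_Lop (hT : Sym T) : IsCompactOperator (Lop T 1 1) := by
  refine compact_of_hs ?_
  simp only [Lop_adj hT, Lop_dl hT]
  exact (hasSum_sl _).summable

theorem symm_Lop (hT : Sym T) : (Lop T 1 1 : Ell2 Λ →ₗ[ℂ] Ell2 Λ).IsSymmetric := by
  rw [← ContinuousLinearMap.isSelfAdjoint_iff_isSymmetric, ContinuousLinearMap.isSelfAdjoint_iff',
    Lop_adj hT]

/-- A common eigenvector of all the slices. -/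
theorem exists_eig (hα : Frame α)
    (hΛ : ∀ s : Λ, s ≠ 1 → Set.Infinite {y : Λ | ∃ h, y = h * s * h⁻¹})
    {c : ℝ} (hc : 0 < c) (hT : Good c T) (hTα : ∀ g v, T (α g v) = A3 α g (T v)) :
    ∃ e : Ell2 Λ, ‖e‖ = 1 ∧ ∃ M : Λ → Λ → ℂ, M 1 1 ≠ 0 ∧ ∀ b c, Lop T b c e = M b c • e := by
  have hne : Lop T 1 1 ≠ 0 := fun h => Lop_one_ne hc hT (by rw [h]; rfl)
  have h1 := (ContinuousLinearMap.eq_zero_of_forall_hasEigenvalue_eq_zero (compact_Lop hT.sym)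
    (symm_Lop hT.sym)).not.mpr hne
  push Not at h1
  obtain ⟨μ, hμ, hμ0⟩ := h1
  have hfd := ContinuousLinearMap.finite_dimensional_eigenspace (compact_Lop hT.sym) μ hμ0
  obtain ⟨e, he, he0, hf⟩ := common_eig
    (fun p : Λ × Λ => (Lop T p.1 p.2 : Ell2 Λ →ₗ[ℂ] Ell2 Λ))
    (fun i j v => Lop_comm hα hΛ hc hT hTα _ _ _ _ v) _
    (Module.End.eigenspace (Lop T 1 1 : Ell2 Λ →ₗ[ℂ] Ell2 Λ) μ) hfd rfl hμ (fun i w hw => by
      rw [Module.End.mem_eigenspace_iff] at hw ⊢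
      change Lop T 1 1 (Lop T i.1 i.2 w) = μ • Lop T i.1 i.2 w
      have hw' : Lop T 1 1 w = μ • w := hw
      rw [Lop_comm hα hΛ hc hT hTα, hw', map_smul])
  rw [Module.End.mem_eigenspace_iff] at he
  have he' : Lop T 1 1 e = μ • e := he
  choose N hN using fun b c => hf (b, c)
  have hn : ‖e‖ ≠ 0 := norm_ne_zero_iff.mpr he0
  refine ⟨((‖e‖⁻¹ : ℝ) : ℂ) • e, by rw [norm_smul]; simp [hn], N, ?_, fun b c => ?_⟩
  · have h2 : N 1 1 • e = μ • e := by rw [← he']; exact (hN 1 1).symm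
    rw [smul_left_injective ℂ he0 h2]
    exact hμ0
  · rw [map_smul, smul_comm]
    congr 1
    exact hN b c

/-- exchange of the first and third coordinates -/
def e13 : Λ × Λ × Λ ≃ Λ × Λ × Λ where
  toFun x := (x.2.2, x.2.1, x.1)
  invFun x := (x.2.2, x.2.1, x.1)
  left_inv _ := rfl
  right_inv _ := rfl

theorem bd_vec (hT : Sym T) (v : Ell2 Λ) (b c d : Λ) : T v (b, c, d) = T v (d, c, b) := by
  have h : T = rei e13 ∘L T := by
    apply op_ext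
    intro a
    apply ext_inner_dl
    rintro ⟨b, c, d⟩
    exact hT.bd a b c d
  have h2 : T v (b, c, d) = (rei e13 ∘L T) v (b, c, d) := by rw [← h]
  exact h2

/-- The form of `T` on a common eigenvector. -/
theorem exists_cubic (hα : Frame α)
    (hΛ : ∀ s : Λ, s ≠ 1 → Set.Infinite {y : Λ | ∃ h, y = h * s * h⁻¹})
    {c : ℝ} (hc : 0 < c) (hT : Good c T) (hTα : ∀ g v, T (α g v) = A3 α g (T v)) :
    ∃ e : Ell2 Λ, ‖e‖ = 1 ∧ ∃ κ : ℂ, κ ≠ 0 ∧ T e = κ • tv e (tv (cj e) e) := by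
  obtain ⟨e, he, M, hM0, hM⟩ := exists_eig hα hΛ hc hT hTα
  refine ⟨e, he, ?_⟩
  have he0 : e ≠ 0 := fun h => by rw [h, norm_zero] at he; exact zero_ne_one he
  obtain ⟨d₀, hd₀⟩ : ∃ d, e d ≠ 0 := by
    by_contra h
    push Not at h
    exact he0 (eq_zero_of_inner_dl h)
  have hTe : ∀ b c d, T e (b, c, d) = M b c * e d := fun b c d => by
    rw [← Lop_apply, hM]; rfl
  have h1 : ∀ b c, M b c * e d₀ = M d₀ c * e b := fun b c => by
    rw [← hTe, ← hTe, bd_vec hT.sym]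
  have h2 : ∀ b c, M b c = (starRingEnd ℂ) (M c b) := by
    intro b c
    have e1 : ⟪e, Lop T b c e⟫_ℂ = M b c := by
      rw [hM, inner_smul_right, inner_self_eq_norm_sq_to_K, he]; simp
    have e2 : ⟪e, Lop T b c e⟫_ℂ = (starRingEnd ℂ) (M c b) := by
      rw [← adjoint_inner_left, Lop_adj hT.sym, hM, inner_smul_left, inner_self_eq_norm_sq_to_K,
        he]
      simp
    rw [← e1, e2]
  set κ : ℂ := (starRingEnd ℂ) (M d₀ d₀ / e d₀) / e d₀ with hκ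
  have h3 : ∀ b c, M b c = κ * e b * (starRingEnd ℂ) (e c) := by
    intro b c
    have e1 : M b c = M d₀ c * e b / e d₀ := by
      rw [eq_div_iff hd₀]; exact h1 b c
    have e2 : M c d₀ = M d₀ d₀ * e c / e d₀ := by
      rw [eq_div_iff hd₀]; exact h1 c d₀
    rw [e1, h2 d₀ c, e2, hκ, map_div₀, map_div₀, map_mul]
    ring
  refine ⟨κ, ?_, ?_⟩
  · intro h
    apply hM0
    rw [h3, h, zero_mul, zero_mul]
  · apply ext_inner_dl
    rintro ⟨b, c, d⟩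
    rw [hTe, h3]
    change κ * e b * (starRingEnd ℂ) (e c) * e d = κ * (e b * ((starRingEnd ℂ) (e c) * e d))
    ring

/-- `T*T` is a scalar. -/
theorem adj_comp_scalar (hα : Frame α)
    (hΛ : ∀ s : Λ, s ≠ 1 → Set.Infinite {y : Λ | ∃ h, y = h * s * h⁻¹})
    (hI : Itw α ι3 (A3 α) T) :
    ∃ β : ℂ, ∀ u v, ⟪T u, T v⟫_ℂ = β * ⟪u, v⟫_ℂ := by
  set B : Ell2 Λ →L[ℂ] Ell2 Λ := adjoint T ∘L T with hB
  have hBα : Cmm α B := by
    have := Itw.cmm (A3_comm hα) (A3_adj hα) hα hI hI 1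
    rw [rho_one] at this
    exact this
  have hBρ : Cmm rhoH B := by
    intro s
    ext1 v
    refine ext_inner_left ℂ fun u => ?_
    change ⟪u, adjoint T (T (rho s v))⟫_ℂ = ⟪u, rho s (adjoint T (T v))⟫_ℂ
    have e1 := (regRep_rho (G := Λ)).inner_right s u (adjoint T (T v))
    rw [rhoH_apply, rhoH_apply] at e1
    have e2 := (regRep_rho (G := Λ × Λ × Λ)).inner_right (ι3 s) (T u) (T v)
    rw [rhoH_apply, rhoH_apply] at e2
    rw [e1, adjoint_inner_right, adjoint_inner_right, hI.rho_map, e2, hI.rho_map, map_inv]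
  have hBl : Cmm lamH B := by
    intro s
    have h1 := RegRep.commute hα.reg regRep_rho (fun g s => hα.comm g s) (cmm_rho_lam s) hBα
    exact h1.symm
  have hv : B (dl 1) = ⟪dl 1, B (dl 1)⟫_ℂ • dl 1 := by
    refine regRep_lam.icc_vec Set.univ (fun g hg => ?_) (fun k _ g => ?_)
    · simpa using hΛ g hg
    · rw [lamH_apply, lamH_apply, lam_dl, lam_dl, mul_one, mul_one]
      have e1 : (dl (k * g * k⁻¹) : Ell2 Λ) = lam k (rho k (dl g)) := by
        rw [rho_dl, lam_dl, mul_assoc]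
      rw [e1]
      have e2 := (regRep_lam (G := Λ)).inner_left k (rho k (dl g)) (B (dl 1))
      rw [lamH_apply, lamH_apply] at e2
      have e3 := (regRep_rho (G := Λ)).inner_left k (dl g) (lam k⁻¹ (B (dl 1)))
      rw [rhoH_apply, rhoH_apply] at e3
      have e4 : lam k⁻¹ (B (dl 1)) = B (lam k⁻¹ (dl 1)) := (hBl.apply k⁻¹ (dl 1)).symm
      have e5 : rho k⁻¹ (B (lam k⁻¹ (dl 1))) = B (rho k⁻¹ (lam k⁻¹ (dl 1))) :=
        (hBρ.apply k⁻¹ _).symm
      rw [e2, e3, e4, e5, lam_dl, rho_dl, mul_one, inv_inv, inv_mul_cancel]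
  refine ⟨⟪dl 1, B (dl 1)⟫_ℂ, fun u v => ?_⟩
  have hBs : B = ⟪dl 1, B (dl 1)⟫_ℂ • (1 : Ell2 Λ →L[ℂ] Ell2 Λ) :=
    regRep_rho.ext_cmm hBρ (Cmm.one.smul _) (by rw [hv]; simp [inner_smul_right, norm_dl])
  have e1 : ⟪T u, T v⟫_ℂ = ⟪u, B v⟫_ℂ := (adjoint_inner_right T u (T v)).symm
  rw [e1]
  conv_lhs => rw [hBs]
  change ⟪u, (⟪dl 1, B (dl 1)⟫_ℂ : ℂ) • v⟫_ℂ = _
  rw [inner_smul_right]

/-- unit vectors on which `T` is cubic -/
def CubE (T : Ell2 Λ →L[ℂ] Ell2 (Λ × Λ × Λ)) (κ : ℂ) (v : Ell2 Λ) : Prop :=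
  ‖v‖ = 1 ∧ T v = κ • tv v (tv (cj v) v)

theorem CubE.rho (hI : Itw α ι3 (A3 α) T) {κ : ℂ} {v : Ell2 Λ} (h : CubE T κ v) (s : Λ) :
    CubE T κ (rho s v) := by
  refine ⟨by rw [norm_rho, h.1], ?_⟩
  have e1 : H160.rho (ι3 s) = tens (H160.rho s) (tens (H160.rho s) (H160.rho s)) := by
    rw [tens_rho, tens_rho]; rfl
  rw [hI.rho_map, h.2, map_smul, e1, tens_tv, tens_tv, ← bar_rho, bar_cj, bar_rho]

theorem CubE.alpha (hα : Frame α) (hI : Itw α ι3 (A3 α) T) {κ : ℂ} {v : Ell2 Λ}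
    (h : CubE T κ v) (g : Γ) : CubE T κ (α g v) := by
  refine ⟨by rw [hα.reg.norm_map, h.1], ?_⟩
  rw [hI.alpha_map, h.2, map_smul, A3_apply, tens_tv, tens_tv, bar_cj]

theorem CubE.dichotomy {β κ : ℂ} (hκ : κ ≠ 0) (hβ : ∀ u v, ⟪T u, T v⟫_ℂ = β * ⟪u, v⟫_ℂ)
    {v w : Ell2 Λ} (hv : CubE T κ v) (hw : CubE T κ w) :
    ⟪v, w⟫_ℂ = 0 ∨ ‖⟪v, w⟫_ℂ‖ = 1 := by
  have key : ∀ {v w : Ell2 Λ}, CubE T κ v → CubE T κ w →
      β * ⟪v, w⟫_ℂ = (starRingEnd ℂ) κ * κ * (⟪v, w⟫_ℂ * ((starRingEnd ℂ) ⟪v, w⟫_ℂ * ⟪v, w⟫_ℂ)) := by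
    intro v w hv hw
    rw [← hβ, hv.2, hw.2, inner_smul_left, inner_smul_right, inner_tv, inner_tv, inner_cj_cj]
    ring
  have h1 := key hv hv
  rw [inner_self_eq_norm_sq_to_K, hv.1] at h1
  simp only [Complex.ofReal_one, one_pow, mul_one, map_one] at h1
  have h1' : β = (starRingEnd ℂ) κ * κ := by simpa using h1
  have h2 := key hv hw
  rw [h1'] at h2
  have h3 : (starRingEnd ℂ) κ * κ ≠ 0 := mul_ne_zero (by simpa using hκ) hκ
  have h4 := mul_left_cancel₀ h3 h2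
  by_cases h5 : ⟪v, w⟫_ℂ = 0
  · exact Or.inl h5
  · right
    have h6 : (starRingEnd ℂ) ⟪v, w⟫_ℂ * ⟪v, w⟫_ℂ = 1 := by
      have h7 : ⟪v, w⟫_ℂ * 1 = ⟪v, w⟫_ℂ * ((starRingEnd ℂ) ⟪v, w⟫_ℂ * ⟪v, w⟫_ℂ) := by
        rw [mul_one]; exact h4
      exact (mul_left_cancel₀ h5 h7).symm
    rw [Complex.conj_mul'] at h6
    have h8 : ‖⟪v, w⟫_ℂ‖ ^ 2 = 1 := by exact_mod_cast h6
    have h9 := norm_nonneg ⟪v, w⟫_ℂ
    nlinarith

/-- two unit vectors with inner product of modulus one are proportional -/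
theorem eq_smul_of_norm_inner {v w : Ell2 Λ} (hv : ‖v‖ = 1) (hw : ‖w‖ = 1)
    (h : ‖⟪v, w⟫_ℂ‖ = 1) : w = ⟪v, w⟫_ℂ • v := by
  have h1 : ⟪w - ⟪v, w⟫_ℂ • v, w - ⟪v, w⟫_ℂ • v⟫_ℂ = 0 := by
    rw [inner_sub_left, inner_sub_right, inner_sub_right, inner_smul_left, inner_smul_right,
      inner_smul_left, inner_smul_right, inner_self_eq_norm_sq_to_K, inner_self_eq_norm_sq_to_K,
      hv, hw, ← inner_conj_symm w v]
    have h2 : (starRingEnd ℂ) ⟪v, w⟫_ℂ * ⟪v, w⟫_ℂ = 1 := by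
      rw [Complex.conj_mul', h]; simp
    simp only [Complex.ofReal_one, one_pow, mul_one, Complex.coe_algebraMap, map_one]
    linear_combination -h2
  exact sub_eq_zero.mp (inner_self_eq_zero.mp h1)

/-- Distinct right translates of a cubic vector are orthogonal. -/
theorem cub_orth (hα : Frame α)
    (hΛ : ∀ s : Λ, s ≠ 1 → Set.Infinite {y : Λ | ∃ h, y = h * s * h⁻¹})
    (hI : Itw α ι3 (A3 α) T) {κ : ℂ} (hκ : κ ≠ 0) {e : Ell2 Λ} (he : CubE T κ e) (k : Λ)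
    (hk : k ≠ 1) : ⟪e, rho k e⟫_ℂ = 0 := by
  set B : Ell2 Λ →L[ℂ] Ell2 Λ := adjoint T ∘L rho (k, 1, 1) ∘L T with hB
  have hBα : Cmm α B := Itw.cmm (A3_comm hα) (A3_adj hα) hα hI hI (k, 1, 1)
  have h0 : ∀ s : Λ, ⟪dl 1, B (dl s)⟫_ℂ = 0 := by
    intro s
    have e1 : ⟪dl 1, B (dl s)⟫_ℂ = ⟪T (dl 1), rho (k, 1, 1) (T (dl s))⟫_ℂ :=
      adjoint_inner_right T _ _
    have e2 : rho ((k, 1, 1) : Λ × Λ × Λ) (T (dl s)) =
        rho (((k, 1, 1) : Λ × Λ × Λ) * ι3 s⁻¹) (T (dl 1)) := by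
      rw [rho_mul, mul_ap, ← hI.rho_map, ← dl_eq_rho]
    rw [e1, e2]
    refine coeff_zero hα ι3 (ι3_icc hΛ) (A3 α) (A3_comm hα) (A3_adj hα) hI hI _ fun h => ?_
    have h1 : k * s⁻¹ = 1 := congrArg Prod.fst h
    have h2 : 1 * s⁻¹ = 1 := congrArg (fun p : Λ × Λ × Λ => p.2.1) h
    rw [one_mul] at h2
    rw [h2, mul_one] at h1
    exact hk h1
  have h1 : adjoint B = 0 := by
    refine hα.reg.ext_cmm (hα.reg.cmm_adjoint hBα) (fun g => by rw [zero_mul, mul_zero]) ?_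
    rw [ContinuousLinearMap.zero_apply]
    refine eq_zero_of_inner_dl fun s => ?_
    rw [← inner_dl, adjoint_inner_right, ← inner_conj_symm, h0, map_zero]
  have h2 : B = 0 := by rw [← adjoint_adjoint B, h1, map_zero]
  have h3 : ⟪T e, rho (k, 1, 1) (T e)⟫_ℂ = 0 := by
    have e1 : ⟪e, B e⟫_ℂ = ⟪T e, rho (k, 1, 1) (T e)⟫_ℂ := adjoint_inner_right T _ _
    rw [← e1, h2, ContinuousLinearMap.zero_apply, inner_zero_right]
  rw [he.2, map_smul, ← tens_rho, ← tens_rho, tens_tv, tens_tv, rho_one, inner_smul_left,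
    inner_smul_right, inner_tv, inner_tv] at h3
  simp only [one_apply_eq_self] at h3
  rw [inner_cj_cj, inner_self_eq_norm_sq_to_K, he.1] at h3
  simpa [hκ] using h3

/-- The canonical form of the frame. -/
theorem canon_of_p4 (hα : Frame α)
    (hΓ : ∀ g : Γ, g ≠ 1 → Set.Infinite {y : Γ | ∃ h, y = h * g * h⁻¹})
    {c : ℝ} (hc : 0 < c) (hp : ∀ g, c ≤ p4 α g) :
    ∃ (V : Ell2 Λ →L[ℂ] Ell2 Λ) (δ : Γ ≃* Λ) (χ : Γ →* Circle), Cmm rhoH V ∧
      adjoint V * V = 1 ∧ V * adjoint V = 1 ∧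
      ∀ g, α g = (χ g : ℂ) • (V * lam (δ g) * adjoint V) := by
  have hΛ := hα.icc hΓ
  obtain ⟨T, hT, hTα⟩ := exists_invariant hα hp
  have hI : Itw α ι3 (A3 α) T := ⟨hT.rho_map, hTα⟩
  obtain ⟨e, he, κ, hκ, hTe⟩ := exists_cubic hα hΛ hc hT hTα
  have hE : CubE T κ e := ⟨he, hTe⟩
  obtain ⟨β, hβ⟩ := adj_comp_scalar hα hΛ hI
  have horth : ∀ k : Λ, k ≠ 1 → ⟪e, rho k e⟫_ℂ = 0 := fun k hk => cub_orth hα hΛ hI hκ hE k hk
  have hreg : RegRep (rhoH (G := Λ)) e := regRep_of_orth he horth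
  have ho := orth_translates he horth
  set V := opOf (bes_of_orthonormal ho) with hV
  have hVdl : ∀ x, V (dl x) = rho x⁻¹ e := fun x => opOf_dl _ x
  have hi : adjoint V * V = 1 := opOf_isometry ho
  have hVc : Cmm rhoH V := by
    intro y
    apply op_ext
    intro x
    rw [mul_ap, mul_ap, rhoH_apply, rho_dl, hVdl, hVdl, mul_inv_rev, inv_inv, rho_mul]
    rfl
  have hf := regRep_rho.finite hVc hi
  -- the permutation
  have hex : ∀ g, ∃ s : Λ, ∃ z : Circle, α g e = (z : ℂ) • rho s⁻¹ e := by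
    intro g
    have h1 : ∃ s : Λ, ⟪rho s e, α g e⟫_ℂ ≠ 0 := by
      by_contra h
      push Not at h
      have h2 := hreg.total (α g e) h
      have h3 := hα.reg.norm_map g e
      rw [h2, norm_zero, he] at h3
      exact zero_ne_one h3
    obtain ⟨s, hs⟩ := h1
    have h4 := (CubE.dichotomy hκ hβ (hE.rho hI s) (hE.alpha hα hI g)).resolve_left hs
    have h5 := eq_smul_of_norm_inner (by rw [norm_rho, he]) (by rw [hα.reg.norm_map, he]) h4
    refine ⟨s⁻¹, ⟨⟪rho s e, α g e⟫_ℂ, mem_sphere_zero_iff_norm.mpr h4⟩, ?_⟩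
    rw [inv_inv]
    exact h5
  choose δ χ hδ using hex
  have hαV : ∀ g, α g * V = (χ g : ℂ) • (V * lam (δ g)) := by
    intro g
    apply op_ext
    intro x
    change α g (V (dl x)) = (χ g : ℂ) • V (lam (δ g) (dl x))
    rw [hVdl, hα.apply_comm, hδ, lam_dl, hVdl, map_smul, mul_inv_rev, rho_mul]
    rfl
  have hαf : ∀ g, α g = (χ g : ℂ) • (V * lam (δ g) * adjoint V) := by
    intro g
    calc α g = α g * (V * adjoint V) := by rw [hf, mul_one]
      _ = (α g * V) * adjoint V := by rw [mul_assoc]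
      _ = _ := by rw [hαV, smul_mul_assoc]
  have hV1 : ∀ v : Ell2 Λ, adjoint V (V v) = v := fun v =>
    congrArg (fun L : Ell2 Λ →L[ℂ] Ell2 Λ => L v) hi
  have hkey : ∀ g h, (χ (g * h) : ℂ) • (dl (δ (g * h)) : Ell2 Λ) =
      ((χ g : ℂ) * (χ h : ℂ)) • dl (δ g * δ h) := by
    intro g h
    have h1 : (α (g * h) * V) (dl 1) = (α g * (α h * V)) (dl 1) := by
      rw [map_mul, mul_assoc]
    rw [hαV, hαV] at h1
    have h2 : (α g * ((χ h : ℂ) • (V * lam (δ h)))) (dl 1) =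
        ((χ h : ℂ) • ((α g * V) * lam (δ h))) (dl 1) := by
      rw [mul_smul_comm, mul_assoc]
    rw [h2, hαV] at h1
    have h3 : (χ (g * h) : ℂ) • V (lam (δ (g * h)) (dl 1)) =
        (χ h : ℂ) • (χ g : ℂ) • V (lam (δ g) (lam (δ h) (dl 1))) := h1
    have h4 := congrArg (adjoint V) h3
    rw [map_smul, map_smul, map_smul, hV1, hV1, lam_dl, lam_dl, lam_dl, mul_one, mul_one,
      smul_smul, mul_comm (χ h : ℂ)] at h4
    exact h4
  have hδm : ∀ g h, δ (g * h) = δ g * δ h := by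
    intro g h
    by_contra hne
    have h1 := congrArg (fun u : Ell2 Λ => u (δ (g * h))) (hkey g h)
    change (χ (g * h) : ℂ) * (dl (δ (g * h)) : Ell2 Λ) (δ (g * h)) =
      ((χ g : ℂ) * (χ h : ℂ)) * (dl (δ g * δ h) : Ell2 Λ) (δ (g * h)) at h1
    rw [dl_self, dl_ne hne, mul_one, mul_zero] at h1
    exact (Circle.coe_ne_zero _) h1
  have hχm : ∀ g h, χ (g * h) = χ g * χ h := by
    intro g h
    have h1 := congrArg (fun u : Ell2 Λ => u (δ (g * h))) (hkey g h)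
    change (χ (g * h) : ℂ) * (dl (δ (g * h)) : Ell2 Λ) (δ (g * h)) =
      ((χ g : ℂ) * (χ h : ℂ)) * (dl (δ g * δ h) : Ell2 Λ) (δ (g * h)) at h1
    rw [← hδm, dl_self, mul_one, mul_one] at h1
    exact Circle.ext (by rw [Circle.coe_mul]; exact h1)
  have hδ1 : δ 1 = 1 := by
    have := hδm 1 1
    rw [mul_one] at this
    exact (left_eq_mul.mp this)
  have hχ1 : χ 1 = 1 := by
    have := hχm 1 1
    rw [mul_one] at this
    exact (left_eq_mul.mp this)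
  -- traces
  have htr : ∀ s : Λ, ⟪dl 1, V (lam s (adjoint V (dl 1)))⟫_ℂ = ⟪(dl 1 : Ell2 Λ), dl s⟫_ℂ := by
    intro s
    have h1 := regRep_rho.trace_comm (hVc.mul (cmm_rho_lam s)) (regRep_rho.cmm_adjoint hVc)
    rw [mul_ap, mul_ap] at h1
    rw [h1, hV1, lam_dl, mul_one]
  have hinj : Function.Injective δ := by
    have h0 : ∀ g, δ g = 1 → g = 1 := by
      intro g hg
      by_contra hne
      have h1 := hα.reg.inner_zero g hne
      rw [hαf g, hg] at h1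
      change ⟪dl 1, (χ g : ℂ) • V (lam 1 (adjoint V (dl 1)))⟫_ℂ = 0 at h1
      rw [inner_smul_right, htr, inner_dl, dl_self, mul_one] at h1
      exact (Circle.coe_ne_zero _) h1
    intro g h hgh
    have h1 : δ (g * h⁻¹) = 1 := by
      have h2 : δ h * δ h⁻¹ = 1 := by rw [← hδm, mul_inv_cancel, hδ1]
      rw [hδm, hgh, h2]
    exact mul_inv_eq_one.mp (h0 _ h1)
  have hsurj : Function.Surjective δ := by
    intro s
    by_contra hne
    push Not at hne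
    have h1 : V (lam s (adjoint V (dl 1))) = 0 := by
      refine hα.reg.total _ fun g => ?_
      have h2 : α g (dl 1) = (χ g : ℂ) • V (lam (δ g) (adjoint V (dl 1))) := by
        rw [hαf g]; rfl
      have h3 : ⟪V (lam (δ g) (adjoint V (dl 1))), V (lam s (adjoint V (dl 1)))⟫_ℂ =
          ⟪lam (δ g) (adjoint V (dl 1)), lam s (adjoint V (dl 1))⟫_ℂ := by
        rw [← adjoint_inner_right, hV1]
      have h4 := (regRep_lam (G := Λ)).inner_left (δ g) (adjoint V (dl 1))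
        (lam s (adjoint V (dl 1)))
      rw [lamH_apply, lamH_apply] at h4
      rw [h2, inner_smul_left, h3, h4, ← mul_ap, ← lam_mul, adjoint_inner_left, htr, inner_dl,
        dl_ne, mul_zero]
      intro h5
      exact hne g (by rw [eq_comm, inv_mul_eq_one] at h5; exact h5)
    have h2 : ‖V (lam s (adjoint V (dl 1)))‖ = 1 := by
      have h3 : ‖adjoint V (dl 1)‖ = ‖V (dl 1)‖ := regRep_rho.norm_adjoint hVc
      rw [norm_of_adj_comp hi, norm_lam, h3, norm_of_adj_comp hi, norm_dl]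
    rw [h1, norm_zero] at h2
    exact zero_ne_one h2
  exact ⟨V, MulEquiv.ofBijective (MonoidHom.mk' δ hδm) ⟨hinj, hsurj⟩,
    MonoidHom.mk' χ hχm, hVc, hi, hf, hαf⟩

end Vale.Agent.P092.H160
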