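import Vale.Agent.P092.H160.Cube

/-!
The slices of the invariant cubic intertwiner commute.
-/

set_option linter.all false

open scoped InnerProductSpace
open Filter Topology ContinuousLinearMap

namespace Vale.Agent.P092.H160

section slices

variable {X Y Z W : Type}

/-- The slice map as a bounded operator. -/
noncomputable def slL (Y : Type) (x : X) : Ell2 (X × Y) →L[ℂ] Ell2 Y :=
  LinearMap.mkContinuous
    { toFun := fun f => sl f x
      map_add' := fun f g => rfl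
      map_smul' := fun c f => rfl } 1 (fun f => by
        rw [one_mul]
        exact norm_sl_le f x)

theorem slL_apply (x : X) (f : Ell2 (X × Y)) : slL Y x f = sl f x := rfl

theorem ampR_comp_tens (A : Ell2 X →L[ℂ] Ell2 X) (C : Ell2 Y →L[ℂ] Ell2 Y)
    (D : Ell2 Z →L[ℂ] Ell2 Z) (S : Ell2 Y →L[ℂ] Ell2 Z) (h : S ∘L C = D ∘L S) :
    ampR X S ∘L tens A C = tens A D ∘L ampR X S := by
  apply op_ext
  rintro ⟨x, y⟩
  rw [comp_apply, comp_apply, tens_dl, ampR_tv, dl_prod, ampR_tv, tens_tv]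
  have h1 : S (C (dl y)) = D (S (dl y)) := congrArg (fun L : Ell2 Y →L[ℂ] Ell2 Z => L (dl y)) h
  rw [h1]

end slices

section five

variable {Γ Λ : Type} [Group Γ] [Group Λ]

/-- fivefold product -/
abbrev P5 (Λ : Type) : Type := Λ × Λ × (Λ × Λ × Λ)

/-- the diagonal embedding -/
def ι5 : Λ →* P5 Λ where
  toFun s := (s, s, (s, s, s))
  map_one' := rfl
  map_mul' _ _ := rfl

theorem ι5_apply (s : Λ) : ι5 s = (s, s, (s, s, s)) := rfl

theorem ι5_icc (hΛ : ∀ s : Λ, s ≠ 1 → Set.Infinite {y : Λ | ∃ h, y = h * s * h⁻¹})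
    (x : P5 Λ) (hx : x ≠ 1) : Set.Infinite {y | ∃ s : Λ, y = ι5 s * x * (ι5 s)⁻¹} := by
  intro hfin
  obtain ⟨a, b, c, d, e⟩ := x
  have h1 : a = 1 := by
    by_contra h
    refine hΛ a h ((hfin.image Prod.fst).subset ?_)
    rintro _ ⟨h, rfl⟩
    exact ⟨_, ⟨h, rfl⟩, rfl⟩
  have h2 : b = 1 := by
    by_contra h
    refine hΛ b h ((hfin.image (fun p => p.2.1)).subset ?_)
    rintro _ ⟨h, rfl⟩
    exact ⟨_, ⟨h, rfl⟩, rfl⟩
  have h3 : c = 1 := by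
    by_contra h
    refine hΛ c h ((hfin.image (fun p => p.2.2.1)).subset ?_)
    rintro _ ⟨h, rfl⟩
    exact ⟨_, ⟨h, rfl⟩, rfl⟩
  have h4 : d = 1 := by
    by_contra h
    refine hΛ d h ((hfin.image (fun p => p.2.2.2.1)).subset ?_)
    rintro _ ⟨h, rfl⟩
    exact ⟨_, ⟨h, rfl⟩, rfl⟩
  have h5 : e = 1 := by
    by_contra h
    refine hΛ e h ((hfin.image (fun p => p.2.2.2.2)).subset ?_)
    rintro _ ⟨h, rfl⟩
    exact ⟨_, ⟨h, rfl⟩, rfl⟩
  exact hx (by rw [h1, h2, h3, h4, h5]; rfl)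

variable (α : Γ →* (Ell2 Λ →L[ℂ] Ell2 Λ))

/-- `α ⊗ conj α ⊗ α ⊗ conj α ⊗ α`. -/
noncomputable def A5 : Γ →* (Ell2 (P5 Λ) →L[ℂ] Ell2 (P5 Λ)) where
  toFun g := tens (α g) (tens (bar (α g)) (A3 α g))
  map_one' := by rw [map_one, map_one, bar_one, tens_one, tens_one]
  map_mul' g h := by rw [map_mul, map_mul, bar_mul, tens_mul, tens_mul]

theorem A5_apply (g : Γ) : A5 α g = tens (α g) (tens (bar (α g)) (A3 α g)) := rfl

variable {α}

theorem A5_adj (hα : Frame α) (g : Γ) : adjoint (A5 α g) = A5 α g⁻¹ := by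
  rw [A5_apply, adjoint_tens, adjoint_tens, adjoint_bar, hα.reg.adj, A3_adj hα, A5_apply]

theorem A5_comm (hα : Frame α) (g : Γ) (x : P5 Λ) : A5 α g * rho x = rho x * A5 α g := by
  obtain ⟨a, b, c⟩ := x
  rw [A5_apply, ← tens_rho, ← tens_rho, ← tens_mul, ← tens_mul, ← tens_mul, ← tens_mul,
    hα.comm, A3_comm hα, bar_comm_rho hα]

/-- exchange of the first two pairs of coordinates -/
def e5 : P5 Λ ≃ P5 Λ where
  toFun x := (x.2.2.1, x.2.2.2.1, (x.1, x.2.1, x.2.2.2.2))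
  invFun x := (x.2.2.1, x.2.2.2.1, (x.1, x.2.1, x.2.2.2.2))
  left_inv _ := rfl
  right_inv _ := rfl

theorem rei_e5_tv (u v w x y : Ell2 Λ) : rei e5 (tv u (tv v (tv w (tv x y)))) =
    tv w (tv x (tv u (tv v y))) := by
  apply ext_inner_dl
  rintro ⟨a, b, c, d, e⟩
  change u c * (v d * (w a * (x b * y e))) = w a * (x b * (u c * (v d * y e)))
  ring

theorem rei_e5_A5 (g : Γ) : rei e5 ∘L A5 α g = A5 α g ∘L rei e5 := by
  apply op_ext
  rintro ⟨a, b, c, d, e⟩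
  rw [comp_apply, comp_apply, A5_apply, A3_apply, tens_dl, tens_dl, tens_dl, tens_dl, rei_e5_tv,
    rei_dl]
  change _ = tens (α g) (tens (bar (α g)) (tens (α g) (tens (bar (α g)) (α g))))
    (dl (c, d, (a, b, e)))
  rw [tens_dl, tens_dl, tens_dl, tens_dl]

theorem rei_e5_rho (s : Λ) : rei e5 ∘L rho (ι5 s) = rho (ι5 s) ∘L rei e5 := by
  apply op_ext
  rintro ⟨a, b, c, d, e⟩
  rw [comp_apply, comp_apply, rho_dl, rei_dl, rei_dl, rho_dl]
  rfl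

variable {T : Ell2 Λ →L[ℂ] Ell2 (Λ × Λ × Λ)}

/-- `(1 ⊗ 1 ⊗ T) T` -/
noncomputable def UU (T : Ell2 Λ →L[ℂ] Ell2 (Λ × Λ × Λ)) : Ell2 Λ →L[ℂ] Ell2 (P5 Λ) :=
  ampR Λ (ampR Λ T) ∘L T

theorem comp_eq_of {S : Ell2 Λ →L[ℂ] Ell2 Λ} {R : Ell2 (Λ × Λ × Λ) →L[ℂ] Ell2 (Λ × Λ × Λ)}
    (h : T ∘L S = R ∘L T) (A B : Ell2 Λ →L[ℂ] Ell2 Λ) (v : Ell2 (Λ × Λ × Λ)) :
    ampR Λ (ampR Λ T) (tens A (tens B S) v) =
      tens A (tens B R) (ampR Λ (ampR Λ T) v) := by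
  have h1 := ampR_comp_tens B S R T h
  have h2 := ampR_comp_tens A (tens B S) (tens B R) (ampR Λ T) h1
  exact congrArg (fun L : Ell2 (Λ × Λ × Λ) →L[ℂ] Ell2 (P5 Λ) => L v) h2

theorem itw_UU (hT : Itw α ι3 (A3 α) T) : Itw α ι5 (A5 α) (UU T) := by
  refine ⟨fun s v => ?_, fun g v => ?_⟩
  · have h : T ∘L rho s = rho (ι3 s) ∘L T := by
      ext1 v
      exact hT.rho_map s v
    change ampR Λ (ampR Λ T) (T (rho s v)) = rho (ι5 s) (ampR Λ (ampR Λ T) (T v))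
    have e1 : rho (ι3 s) = tens (rho s) (tens (rho s) (rho s)) := by
      rw [tens_rho, tens_rho]; rfl
    have e2 : rho (ι5 s) = tens (rho s) (tens (rho s) (rho (ι3 s))) := by
      rw [tens_rho, tens_rho]; rfl
    rw [hT.rho_map, e1, comp_eq_of h, e2]
  · have h : T ∘L α g = A3 α g ∘L T := by
      ext1 v
      exact hT.alpha_map g v
    change ampR Λ (ampR Λ T) (T (α g v)) = A5 α g (ampR Λ (ampR Λ T) (T v))
    rw [hT.alpha_map, A3_apply, comp_eq_of h, A5_apply]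

theorem itw_UU' (hT : Itw α ι3 (A3 α) T) : Itw α ι5 (A5 α) (rei e5 ∘L UU T) := by
  have hU := itw_UU hT
  refine ⟨fun s v => ?_, fun g v => ?_⟩
  · rw [comp_apply, comp_apply, hU.rho_map]
    exact congrArg (fun L : Ell2 (P5 Λ) →L[ℂ] Ell2 (P5 Λ) => L (UU T v)) (rei_e5_rho s)
  · rw [comp_apply, comp_apply, hU.alpha_map]
    exact congrArg (fun L : Ell2 (P5 Λ) →L[ℂ] Ell2 (P5 Λ) => L (UU T v)) (rei_e5_A5 g)

/-- The slices of `T`. -/
noncomputable def Lop (T : Ell2 Λ →L[ℂ] Ell2 (Λ × Λ × Λ)) (b c : Λ) : Ell2 Λ →L[ℂ] Ell2 Λ :=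
  slL Λ c ∘L slL (Λ × Λ) b ∘L T

theorem Lop_apply (b c d : Λ) (a : Ell2 Λ) : Lop T b c a d = T a (b, c, d) := rfl

theorem UU_apply (a : Ell2 Λ) (b c b' c' d : Λ) :
    UU T a (b, c, (b', c', d)) = Lop T b' c' (Lop T b c a) d := rfl

theorem Lop_adj (hT : Sym T) (b c : Λ) : adjoint (Lop T b c) = Lop T c b := by
  apply op_ext
  intro d
  apply ext_inner_dl
  intro a
  rw [← inner_dl, adjoint_inner_right, inner_dl_right, Lop_apply, Lop_apply, hT.hc, hT.bd, hT.ac]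

theorem Lop_one_ne {c : ℝ} (hc : 0 < c) (hT : Good c T) : Lop T 1 1 (dl 1) ≠ 0 := by
  intro h
  have h1 : Lop T 1 1 (dl 1) 1 = 0 := by rw [h]; rfl
  rw [Lop_apply] at h1
  have h2 := hT.pos
  rw [h1, Complex.zero_re] at h2
  linarith

theorem UU_corner_ne {c : ℝ} (hc : 0 < c) (hT : Good c T) :
    UU T (dl 1) (1, 1, (1, 1, 1)) ≠ 0 := by
  rw [UU_apply, ← inner_dl, ← adjoint_inner_left, Lop_adj hT.sym]
  exact inner_self_ne_zero.mpr (Lop_one_ne hc hT)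

theorem Lop_comm (hα : Frame α) (hΛ : ∀ s : Λ, s ≠ 1 → Set.Infinite {y : Λ | ∃ h, y = h * s * h⁻¹})
    {c : ℝ} (hc : 0 < c) (hT : Good c T) (hTα : ∀ g v, T (α g v) = A3 α g (T v))
    (b c b' c' : Λ) (v : Ell2 Λ) :
    Lop T b' c' (Lop T b c v) = Lop T b c (Lop T b' c' v) := by
  have hI : Itw α ι3 (A3 α) T := ⟨hT.rho_map, hTα⟩
  have hne : UU T (dl 1) ≠ 0 := by
    intro h
    apply UU_corner_ne hc hT
    rw [h]; rfl
  obtain ⟨κ, hκ⟩ := mult_one hα ι5 (ι5_icc hΛ) (A5 α) (A5_comm hα) (A5_adj hα)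
    (itw_UU hI) (itw_UU' hI) hne
  have hκ' : ∀ v x, UU T v (e5.symm x) = κ * UU T v x := by
    intro v x
    have h1 : (rei e5 ∘L UU T) v = (κ • UU T) v := by rw [hκ]
    exact congrArg (fun u : Ell2 (P5 Λ) => u x) h1
  have h1 : κ = 1 := by
    have h2 := hκ' (dl 1) (1, 1, (1, 1, 1))
    change UU T (dl 1) (1, 1, (1, 1, 1)) = κ * UU T (dl 1) (1, 1, (1, 1, 1)) at h2
    have h3 := UU_corner_ne hc hT
    exact mul_right_cancel₀ h3 (by rw [one_mul]; exact h2.symm)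
  apply ext_inner_dl
  intro d
  rw [← UU_apply, ← UU_apply]
  have h2 := hκ' v (b', c', (b, c, d))
  rw [h1, one_mul] at h2
  exact h2

end five

end Vale.Agent.P092.H160
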