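import Vale.Agent.P092.H160.Mult

/-!
The cubic intertwiners `T_g = (α(g) ⊗ conj α(g) ⊗ α(g)) T_0 α(g)*` and their minimal norm
average.
-/

set_option linter.all false

open scoped InnerProductSpace
open Filter Topology ContinuousLinearMap

namespace Vale.Agent.P092.H160

/-! ### Convexity and the element of minimal norm -/

section convex

variable {F : Type} [NormedAddCommGroup F] [NormedSpace ℂ F]

/-- convexity, with real scalars seen as complex scalars -/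
def Cvx (K : Set F) : Prop :=
  ∀ x ∈ K, ∀ y ∈ K, ∀ a b : ℝ, 0 ≤ a → 0 ≤ b → a + b = 1 → (a : ℂ) • x + (b : ℂ) • y ∈ K

/-- convex hull -/
def hull (S : Set F) : Set F := {x | ∀ K, Cvx K → S ⊆ K → x ∈ K}

theorem cvx_hull (S : Set F) : Cvx (hull S) := fun x hx y hy a b ha hb hab K hK hS =>
  hK x (hx K hK hS) y (hy K hK hS) a b ha hb hab

theorem subset_hull (S : Set F) : S ⊆ hull S := fun _ hx _ _ hS => hS hx

theorem hull_subset {S K : Set F} (hK : Cvx K) (hS : S ⊆ K) : hull S ⊆ K := fun _ hx => hx K hK hS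

theorem Cvx.closure {K : Set F} (hK : Cvx K) : Cvx (closure K) := by
  intro x hx y hy a b ha hb hab
  refine map_mem_closure₂ (f := fun x y : F => (a : ℂ) • x + (b : ℂ) • y) (by fun_prop) hx hy ?_
  intro x hx y hy
  exact hK x hx y hy a b ha hb hab

theorem Cvx.image {F' : Type} [NormedAddCommGroup F'] [NormedSpace ℂ F'] {K : Set F}
    (hK : Cvx K) (L : F →ₗ[ℂ] F') : Cvx (L '' K) := by
  rintro _ ⟨x, hx, rfl⟩ _ ⟨y, hy, rfl⟩ a b ha hb hab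
  exact ⟨_, hK x hx y hy a b ha hb hab, by rw [map_add, map_smul, map_smul]⟩

end convex

theorem exists_min_norm {F : Type} [NormedAddCommGroup F] [InnerProductSpace ℂ F]
    [CompleteSpace F] {K : Set F} (hne : K.Nonempty) (hc : IsClosed K) (hcv : Cvx K) :
    ∃ ω ∈ K, (∀ v ∈ K, ‖ω‖ ≤ ‖v‖) ∧ ∀ v ∈ K, ‖v‖ ≤ ‖ω‖ → v = ω := by
  letI : InnerProductSpace ℝ F := InnerProductSpace.rclikeToReal ℂ F
  have hcv' : Convex ℝ K := by
    intro x hx y hy a b ha hb hab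
    exact hcv x hx y hy a b ha hb hab
  obtain ⟨ω, hω, hmin⟩ := exists_norm_eq_iInf_of_complete_convex hne hc.isComplete hcv' 0
  have h1 : ∀ v ∈ K, ‖ω‖ ≤ ‖v‖ := by
    intro v hv
    have h2 : ‖(0 : F) - ω‖ ≤ ‖(0 : F) - v‖ := by
      rw [hmin]
      exact ciInf_le ⟨0, by rintro _ ⟨w, rfl⟩; positivity⟩ (⟨v, hv⟩ : K)
    simpa using h2
  refine ⟨ω, hω, h1, fun v hv hle => ?_⟩
  have h3 := hcv v hv ω hω (1 / 2) (1 / 2) (by norm_num) (by norm_num) (by norm_num)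
  have h4 := h1 _ h3
  have h5 := parallelogram_law_with_norm ℂ v ω
  have h6 : ((1 / 2 : ℝ) : ℂ) • v + ((1 / 2 : ℝ) : ℂ) • ω = ((1 / 2 : ℝ) : ℂ) • (v + ω) := by
    rw [smul_add]
  rw [h6, norm_smul] at h4
  have h7 : ‖((1 / 2 : ℝ) : ℂ)‖ = 1 / 2 := by
    rw [Complex.norm_real]; norm_num
  rw [h7] at h4
  have h8 : ‖v - ω‖ = 0 := by
    have h9 := norm_nonneg (v - ω)
    have h10 := norm_nonneg ω
    have h11 := norm_nonneg v
    nlinarith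
  rw [norm_eq_zero] at h8
  exact sub_eq_zero.mp h8

/-! ### The cubic operators -/

section cubic

variable {Γ Λ : Type} [Group Γ] [Group Λ]

/-- the diagonal embedding -/
def ι3 : Λ →* Λ × Λ × Λ where
  toFun s := (s, s, s)
  map_one' := rfl
  map_mul' _ _ := rfl

theorem ι3_apply (s : Λ) : ι3 s = (s, s, s) := rfl

theorem ι3_icc (hΛ : ∀ s : Λ, s ≠ 1 → Set.Infinite {y : Λ | ∃ h, y = h * s * h⁻¹})
    (x : Λ × Λ × Λ) (hx : x ≠ 1) : Set.Infinite {y | ∃ s : Λ, y = ι3 s * x * (ι3 s)⁻¹} := by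
  intro hfin
  obtain ⟨a, b, c⟩ := x
  have h1 : a = 1 := by
    by_contra h
    refine hΛ a h ((hfin.image Prod.fst).subset ?_)
    rintro _ ⟨h, rfl⟩
    exact ⟨_, ⟨h, rfl⟩, rfl⟩
  have h2 : b = 1 := by
    by_contra h
    refine hΛ b h ((hfin.image (fun p => p.2.1)).subset ?_)
    rintro _ ⟨h, rfl⟩
    exact ⟨_, ⟨h, rfl⟩, rfl⟩
  have h3 : c = 1 := by
    by_contra h
    refine hΛ c h ((hfin.image (fun p => p.2.2)).subset ?_)
    rintro _ ⟨h, rfl⟩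
    exact ⟨_, ⟨h, rfl⟩, rfl⟩
  exact hx (by rw [h1, h2, h3]; rfl)

variable (α : Γ →* (Ell2 Λ →L[ℂ] Ell2 Λ))

/-- `α ⊗ conj α ⊗ α`. -/
noncomputable def A3 : Γ →* (Ell2 (Λ × Λ × Λ) →L[ℂ] Ell2 (Λ × Λ × Λ)) where
  toFun g := tens (α g) (tens (bar (α g)) (α g))
  map_one' := by rw [map_one, bar_one, tens_one, tens_one]
  map_mul' g h := by rw [map_mul, bar_mul, tens_mul, tens_mul]

theorem A3_apply (g : Γ) : A3 α g = tens (α g) (tens (bar (α g)) (α g)) := rfl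

variable {α}

theorem A3_adj (hα : Frame α) (g : Γ) : adjoint (A3 α g) = A3 α g⁻¹ := by
  rw [A3_apply, adjoint_tens, adjoint_tens, adjoint_bar, hα.reg.adj, A3_apply]

theorem bar_comm_rho (hα : Frame α) (g : Γ) (s : Λ) :
    bar (α g) * rho s = rho s * bar (α g) := by
  rw [← bar_rho s, ← bar_mul, ← bar_mul, hα.comm]

theorem A3_comm (hα : Frame α) (g : Γ) (x : Λ × Λ × Λ) : A3 α g * rho x = rho x * A3 α g := by
  obtain ⟨a, b, c⟩ := x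
  rw [A3_apply, ← tens_rho, ← tens_rho, ← tens_mul, ← tens_mul, ← tens_mul, ← tens_mul,
    hα.comm, hα.comm, bar_comm_rho hα]

theorem orth_diag : Orthonormal ℂ (fun s : Λ => (dl (s, s, s) : Ell2 (Λ × Λ × Λ))) := by
  refine ⟨fun s => norm_dl _, fun s t hne => ?_⟩
  change ⟪(dl (s, s, s) : Ell2 (Λ × Λ × Λ)), dl (t, t, t)⟫_ℂ = 0
  rw [inner_dl, dl_ne]
  intro h
  exact hne (congrArg Prod.fst h)

/-- The isometry `δ_s ↦ δ_(s,s,s)`. -/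
noncomputable def T0 (Λ : Type) [Group Λ] : Ell2 Λ →L[ℂ] Ell2 (Λ × Λ × Λ) :=
  opOf (bes_of_orthonormal orth_diag)

theorem T0_dl (s : Λ) : T0 Λ (dl s) = dl (s, s, s) := opOf_dl _ s

theorem T0_adj_apply (w : Ell2 (Λ × Λ × Λ)) (s : Λ) : adjoint (T0 Λ) w s = w (s, s, s) := by
  rw [← inner_dl, adjoint_inner_right, T0_dl, inner_dl]

theorem norm_T0 (v : Ell2 Λ) : ‖T0 Λ v‖ = ‖v‖ := norm_of_adj_comp (opOf_isometry orth_diag) v

theorem T0_rho (s : Λ) (v : Ell2 Λ) : T0 Λ (rho s v) = rho (ι3 s) (T0 Λ v) := by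
  have h : T0 Λ ∘L rho s = rho (ι3 s) ∘L T0 Λ := by
    apply op_ext
    intro x
    rw [comp_apply, comp_apply, rho_dl, T0_dl, T0_dl, rho_dl]
    rfl
  exact congrArg (fun L : Ell2 Λ →L[ℂ] Ell2 (Λ × Λ × Λ) => L v) h

variable (α) in
/-- `T_g`. -/
noncomputable def Tg (g : Γ) : Ell2 Λ →L[ℂ] Ell2 (Λ × Λ × Λ) := A3 α g ∘L T0 Λ ∘L α g⁻¹

theorem A3_norm (hα : Frame α) (g : Γ) (w : Ell2 (Λ × Λ × Λ)) : ‖A3 α g w‖ = ‖w‖ := by
  have h2 : ⟪A3 α g w, A3 α g w⟫_ℂ = ⟪w, w⟫_ℂ := by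
    rw [← adjoint_inner_right, A3_adj hα, ← mul_ap, ← map_mul, inv_mul_cancel, map_one]; rfl
  rw [inner_self_eq_norm_sq_to_K, inner_self_eq_norm_sq_to_K] at h2
  have h3 : ‖A3 α g w‖ ^ 2 = ‖w‖ ^ 2 := by exact_mod_cast h2
  exact (pow_left_inj₀ (norm_nonneg _) (norm_nonneg _) two_ne_zero).mp h3

theorem norm_Tg_apply (hα : Frame α) (g : Γ) (v : Ell2 Λ) : ‖Tg α g v‖ = ‖v‖ := by
  change ‖A3 α g (T0 Λ (α g⁻¹ v))‖ = _
  rw [A3_norm hα, norm_T0, hα.reg.norm_map]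

theorem norm_Tg_le (hα : Frame α) (g : Γ) : ‖Tg α g‖ ≤ 1 :=
  opNorm_le_bound _ zero_le_one fun v => by rw [norm_Tg_apply hα, one_mul]

theorem Tg_rho (hα : Frame α) (g : Γ) (s : Λ) (v : Ell2 Λ) :
    Tg α g (rho s v) = rho (ι3 s) (Tg α g v) := by
  change A3 α g (T0 Λ (α g⁻¹ (rho s v))) = rho (ι3 s) (A3 α g (T0 Λ (α g⁻¹ v)))
  rw [hα.apply_comm, T0_rho, ← mul_ap, A3_comm hα]
  rfl

theorem Tg_coord (hα : Frame α) (g : Γ) (a b c d : Λ) : Tg α g (dl a) (b, c, d) =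
    ∑' s, (α g⁻¹ (dl a)) s * (starRingEnd ℂ) ((α g⁻¹ (dl b)) s) * (α g⁻¹ (dl c)) s *
      (starRingEnd ℂ) ((α g⁻¹ (dl d)) s) := by
  rw [← inner_dl]
  change ⟪dl (b, c, d), A3 α g (T0 Λ (α g⁻¹ (dl a)))⟫_ℂ = _
  rw [← adjoint_inner_left, A3_adj hα, ← adjoint_inner_left, inner_eq]
  congr 1
  funext s
  rw [T0_adj_apply, A3_apply, tens_dl, tens_dl, tv_apply, tv_apply, bar_dl, cj_apply, map_mul,
    map_mul, Complex.conj_conj]
  ring

/-- Symmetry of the 4-linear form of `T`. -/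
structure Sym (T : Ell2 Λ →L[ℂ] Ell2 (Λ × Λ × Λ)) : Prop where
  bd : ∀ a b c d, T (dl a) (b, c, d) = T (dl a) (d, c, b)
  ac : ∀ a b c d, T (dl a) (b, c, d) = T (dl c) (b, a, d)
  hc : ∀ a b c d, (starRingEnd ℂ) (T (dl a) (b, c, d)) = T (dl b) (a, d, c)

/-- Bounded equivariant symmetric operators with a positive corner. -/
structure Good (c : ℝ) (T : Ell2 Λ →L[ℂ] Ell2 (Λ × Λ × Λ)) : Prop where
  norm_le : ‖T‖ ≤ 1
  rho_map : ∀ s v, T (rho s v) = rho (ι3 s) (T v)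
  sym : Sym T
  pos : c ≤ (T (dl 1) (1, 1, 1)).re

/-- `∑_s |(α(g) δ_e)(s)|^4`. -/
noncomputable def p4 (α : Γ →* (Ell2 Λ →L[ℂ] Ell2 Λ)) (g : Γ) : ℝ :=
  ∑' s, ‖(α g (dl 1)) s‖ ^ 4

theorem Tg_corner (hα : Frame α) (g : Γ) : Tg α g (dl 1) (1, 1, 1) = (p4 α g⁻¹ : ℂ) := by
  rw [Tg_coord hα, p4, Complex.ofReal_tsum]
  congr 1
  funext s
  set z := (α g⁻¹ (dl 1)) s
  rw [mul_assoc, Complex.mul_conj, Complex.normSq_eq_norm_sq]
  push_cast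
  ring

theorem good_Tg (hα : Frame α) {c : ℝ} (hc : ∀ g, c ≤ p4 α g) (g : Γ) : Good c (Tg α g) where
  norm_le := norm_Tg_le hα g
  rho_map := Tg_rho hα g
  sym := by
    refine ⟨fun a b c d => ?_, fun a b c d => ?_, fun a b c d => ?_⟩
    · rw [Tg_coord hα, Tg_coord hα]
      congr 1; funext s; ring
    · rw [Tg_coord hα, Tg_coord hα]
      congr 1; funext s; ring
    · rw [Tg_coord hα, Tg_coord hα, Complex.conj_tsum]
      congr 1; funext s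
      simp only [map_mul, Complex.conj_conj]
      ring
  pos := by
    rw [Tg_corner hα, Complex.ofReal_re]
    exact hc _

theorem lc_apply (T S : Ell2 Λ →L[ℂ] Ell2 (Λ × Λ × Λ)) (x y : ℂ) (v : Ell2 Λ) (p : Λ × Λ × Λ) :
    (x • T + y • S) v p = x * T v p + y * S v p := rfl

theorem cvx_good (c : ℝ) : Cvx {T : Ell2 Λ →L[ℂ] Ell2 (Λ × Λ × Λ) | Good c T} := by
  intro T hT S hS x y hx hy hxy
  refine ⟨?_, fun s v => ?_, ⟨fun a b c d => ?_, fun a b c d => ?_, fun a b c d => ?_⟩, ?_⟩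
  · calc ‖(x : ℂ) • T + (y : ℂ) • S‖ ≤ ‖(x : ℂ) • T‖ + ‖(y : ℂ) • S‖ := norm_add_le _ _
      _ = x * ‖T‖ + y * ‖S‖ := by
          rw [norm_smul, norm_smul, Complex.norm_real, Complex.norm_real, Real.norm_of_nonneg hx,
            Real.norm_of_nonneg hy]
      _ ≤ x * 1 + y * 1 := by gcongr; exacts [hT.norm_le, hS.norm_le]
      _ = 1 := by linarith
  · change (x : ℂ) • T (rho s v) + (y : ℂ) • S (rho s v) = rho (ι3 s) ((x : ℂ) • T v + (y : ℂ) • S v)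
    rw [hT.rho_map, hS.rho_map, map_add, map_smul, map_smul]
  · rw [lc_apply, lc_apply, hT.sym.bd, hS.sym.bd]
  · rw [lc_apply, lc_apply, hT.sym.ac, hS.sym.ac]
  · rw [lc_apply, lc_apply, map_add, map_mul, map_mul, hT.sym.hc, hS.sym.hc, Complex.conj_ofReal,
      Complex.conj_ofReal]
  · rw [lc_apply, Complex.add_re, Complex.re_ofReal_mul, Complex.re_ofReal_mul]
    have h1 := hT.pos
    have h2 := hS.pos
    calc c = x * c + y * c := by rw [← add_mul, hxy, one_mul]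
      _ ≤ _ := by gcongr

/-- Limits of good operators. -/
theorem good_closed {c : ℝ} {ω : Ell2 (Λ × Λ × Λ)}
    (h : ω ∈ closure ((fun T : Ell2 Λ →L[ℂ] Ell2 (Λ × Λ × Λ) => T (dl 1)) '' {T | Good c T})) :
    ∃ T, Good c T ∧ T (dl 1) = ω := by
  rw [mem_closure_iff_seq_limit] at h
  obtain ⟨x, hx, hlim⟩ := h
  choose T hT hTx using hx
  have hTx' : ∀ n, T n (dl 1) = x n := hTx
  have hTs : ∀ s n, T n (dl s) = rho (ι3 s⁻¹) (x n) := fun s n => by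
    rw [dl_eq_rho, (hT n).rho_map, hTx']
  have hlims : ∀ s, Tendsto (fun n => T n (dl s)) atTop (𝓝 (rho (ι3 s⁻¹) ω)) := by
    intro s
    simp only [hTs]
    exact ((rho (ι3 s⁻¹)).continuous.tendsto ω).comp hlim
  have hb : Bes 1 (fun s : Λ => rho (ι3 s⁻¹) ω) := by
    intro s v
    have h1 : Tendsto (fun n => ∑ t ∈ s, ‖⟪T n (dl t), v⟫_ℂ‖ ^ 2) atTop
        (𝓝 (∑ t ∈ s, ‖⟪rho (ι3 t⁻¹) ω, v⟫_ℂ‖ ^ 2)) :=
      tendsto_finsetSum s fun t _ => (((hlims t).inner tendsto_const_nhds).norm).pow 2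
    refine le_of_tendsto h1 (Eventually.of_forall fun n => ?_)
    exact ((bes_of_op (T n)).mono (norm_nonneg _) (hT n).norm_le) s v
  have hdl : ∀ s, opOf hb (dl s) = rho (ι3 s⁻¹) ω := fun s => opOf_dl hb s
  have hco : ∀ s p, Tendsto (fun n => T n (dl s) p) atTop (𝓝 (opOf hb (dl s) p)) := by
    intro s p
    rw [hdl]
    have h1 := (tendsto_const_nhds (x := (dl p : Ell2 (Λ × Λ × Λ)))).inner (𝕜 := ℂ) (hlims s)
    simpa only [inner_dl] using h1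
  refine ⟨opOf hb, ⟨?_, fun s v => ?_, ⟨fun a b c d => ?_, fun a b c d => ?_, fun a b c d => ?_⟩,
    ?_⟩, ?_⟩
  · simpa using norm_opOf_le hb
  · have h1 : opOf hb ∘L rho s = rho (ι3 s) ∘L opOf hb := by
      apply op_ext
      intro t
      rw [comp_apply, comp_apply, rho_dl, hdl, hdl, mul_inv_rev, inv_inv, map_mul, rho_mul]
      rfl
    exact congrArg (fun L : Ell2 Λ →L[ℂ] Ell2 (Λ × Λ × Λ) => L v) h1
  · refine tendsto_nhds_unique (hco _ _) ?_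
    simp only [fun n => (hT n).sym.bd a b c d]
    exact hco _ _
  · refine tendsto_nhds_unique (hco _ _) ?_
    simp only [fun n => (hT n).sym.ac a b c d]
    exact hco _ _
  · refine tendsto_nhds_unique ((Complex.continuous_conj.tendsto _).comp (hco a (b, c, d))) ?_
    simp only [Function.comp_def, fun n => (hT n).sym.hc a b c d]
    exact hco _ _
  · exact ge_of_tendsto ((Complex.continuous_re.tendsto _).comp (hco 1 (1, 1, 1)))
      (Eventually.of_forall fun n => (hT n).pos)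
  · rw [hdl, inv_one, map_one, rho_one]; rfl

/-- The trace identity for equivariant operators. -/
theorem norm_eq_of_equivariant (hα : Frame α) {K : Type} [Group K] {ι : Λ →* K}
    {S : Ell2 Λ →L[ℂ] Ell2 K} (hS : ∀ s v, S (rho s v) = rho (ι s) (S v)) (g : Γ) :
    ‖S (α g (dl 1))‖ = ‖S (dl 1)‖ := by
  set B : Ell2 Λ →L[ℂ] Ell2 Λ := adjoint S ∘L S with hB
  have hBc : Cmm rhoH B := by
    intro s
    ext1 v
    refine ext_inner_left ℂ fun u => ?_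
    change ⟪u, adjoint S (S (rho s v))⟫_ℂ = ⟪u, rho s (adjoint S (S v))⟫_ℂ
    have e1 := (regRep_rho (G := Λ)).inner_right s u (adjoint S (S v))
    rw [rhoH_apply, rhoH_apply] at e1
    have e2 := (regRep_rho (G := K)).inner_right (ι s) (S u) (S v)
    rw [rhoH_apply, rhoH_apply] at e2
    rw [e1, adjoint_inner_right, adjoint_inner_right, hS, e2, hS, map_inv]
  have h1 : ∀ u v, ⟪S u, S v⟫_ℂ = ⟪u, B v⟫_ℂ := fun u v => (adjoint_inner_right S u (S v)).symm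
  have h2 : ⟪S (α g (dl 1)), S (α g (dl 1))⟫_ℂ = ⟪S (dl 1), S (dl 1)⟫_ℂ := by
    rw [h1, h1, hα.reg.inner_left, ← mul_ap B,
      regRep_rho.trace_comm (hα.cmm_rho g⁻¹) (hBc.mul (hα.cmm_rho g)), mul_ap, hα.reg.apply_inv]
  rw [inner_self_eq_norm_sq_to_K, inner_self_eq_norm_sq_to_K] at h2
  have h3 : ‖S (α g (dl 1))‖ ^ 2 = ‖S (dl 1)‖ ^ 2 := by exact_mod_cast h2
  exact (pow_left_inj₀ (norm_nonneg _) (norm_nonneg _) two_ne_zero).mp h3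

theorem conj_rho (hα : Frame α) {T : Ell2 Λ →L[ℂ] Ell2 (Λ × Λ × Λ)}
    (hT : ∀ s v, T (rho s v) = rho (ι3 s) (T v)) (g : Γ) (s : Λ) (v : Ell2 Λ) :
    (A3 α g ∘L T ∘L α g⁻¹) (rho s v) = rho (ι3 s) ((A3 α g ∘L T ∘L α g⁻¹) v) := by
  change A3 α g (T (α g⁻¹ (rho s v))) = rho (ι3 s) (A3 α g (T (α g⁻¹ v)))
  rw [hα.apply_comm, hT, ← mul_ap, A3_comm hα]
  rfl

theorem conj_Tg (g h : Γ) : A3 α h ∘L Tg α g ∘L α h⁻¹ = Tg α (h * g) := by
  ext1 v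
  change A3 α h (A3 α g (T0 Λ (α g⁻¹ (α h⁻¹ v)))) = A3 α (h * g) (T0 Λ (α (h * g)⁻¹ v))
  rw [mul_inv_rev, map_mul, map_mul]
  rfl

/-- evaluation at the basis vector `δ_e` -/
noncomputable def ev : (Ell2 Λ →L[ℂ] Ell2 (Λ × Λ × Λ)) →ₗ[ℂ] Ell2 (Λ × Λ × Λ) where
  toFun T := T (dl 1)
  map_add' _ _ := rfl
  map_smul' _ _ := rfl

theorem ev_apply (T : Ell2 Λ →L[ℂ] Ell2 (Λ × Λ × Λ)) : ev T = T (dl 1) := rfl

theorem conj_hull (h : Γ) {S : Ell2 Λ →L[ℂ] Ell2 (Λ × Λ × Λ)} (hS : S ∈ hull (Set.range (Tg α))) :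
    A3 α h ∘L S ∘L α h⁻¹ ∈ hull (Set.range (Tg α)) := by
  have hcv : Cvx {R : Ell2 Λ →L[ℂ] Ell2 (Λ × Λ × Λ) |
      A3 α h ∘L R ∘L α h⁻¹ ∈ hull (Set.range (Tg α))} := by
    intro R hR R' hR' a b ha hb hab
    have h1 := cvx_hull _ _ hR _ hR' a b ha hb hab
    have e : A3 α h ∘L ((a : ℂ) • R + (b : ℂ) • R') ∘L α h⁻¹ =
        (a : ℂ) • (A3 α h ∘L R ∘L α h⁻¹) + (b : ℂ) • (A3 α h ∘L R' ∘L α h⁻¹) := by
      ext1 v
      change A3 α h ((a : ℂ) • R (α h⁻¹ v) + (b : ℂ) • R' (α h⁻¹ v)) = _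
      rw [map_add, map_smul, map_smul]
      rfl
    change A3 α h ∘L ((a : ℂ) • R + (b : ℂ) • R') ∘L α h⁻¹ ∈ hull (Set.range (Tg α))
    rw [e]
    exact h1
  refine hull_subset hcv ?_ hS
  rintro _ ⟨g, rfl⟩
  change A3 α h ∘L Tg α g ∘L α h⁻¹ ∈ hull (Set.range (Tg α))
  rw [conj_Tg]
  exact subset_hull _ ⟨_, rfl⟩

theorem conj_norm (hα : Frame α) (h : Γ) {T : Ell2 Λ →L[ℂ] Ell2 (Λ × Λ × Λ)}
    (hT : ∀ s v, T (rho s v) = rho (ι3 s) (T v)) :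
    ‖(A3 α h ∘L T ∘L α h⁻¹) (dl 1)‖ = ‖T (dl 1)‖ := by
  rw [comp_apply, comp_apply, A3_norm hα, norm_eq_of_equivariant hα hT]

theorem conj_norm_sub (hα : Frame α) (h : Γ) {T S : Ell2 Λ →L[ℂ] Ell2 (Λ × Λ × Λ)}
    (hT : ∀ s v, T (rho s v) = rho (ι3 s) (T v)) (hS : ∀ s v, S (rho s v) = rho (ι3 s) (S v)) :
    ‖(A3 α h ∘L T ∘L α h⁻¹) (dl 1) - (A3 α h ∘L S ∘L α h⁻¹) (dl 1)‖ = ‖T (dl 1) - S (dl 1)‖ := by
  have h1 := conj_norm hα h (T := T - S) (fun s v => by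
    rw [sub_apply, sub_apply, hT, hS, map_sub])
  rw [sub_apply] at h1
  rw [← h1, comp_apply, comp_apply, comp_apply, comp_apply, comp_apply, comp_apply, sub_apply,
    map_sub]

theorem conj_mem_closure (hα : Frame α) {c : ℝ} (hc : ∀ g, c ≤ p4 α g)
    {T : Ell2 Λ →L[ℂ] Ell2 (Λ × Λ × Λ)} (hT : ∀ s v, T (rho s v) = rho (ι3 s) (T v))
    (hω : T (dl 1) ∈ closure (ev '' hull (Set.range (Tg α)))) (h : Γ) :
    (A3 α h ∘L T ∘L α h⁻¹) (dl 1) ∈ closure (ev '' hull (Set.range (Tg α))) := by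
  have hgood : hull (Set.range (Tg α)) ⊆ {T | Good c T} := hull_subset (cvx_good c) (by
    rintro _ ⟨g, rfl⟩
    exact good_Tg hα hc g)
  rw [Metric.mem_closure_iff] at hω ⊢
  intro ε hε
  obtain ⟨_, ⟨S, hS, rfl⟩, hd⟩ := hω ε hε
  refine ⟨ev (A3 α h ∘L S ∘L α h⁻¹), ⟨_, conj_hull h hS, rfl⟩, ?_⟩
  rw [dist_eq_norm, ev_apply, conj_norm_sub hα h hT (hgood hS).rho_map, ← dist_eq_norm]
  exact hd

theorem min_norm_ell2 {X : Type} {K : Set (Ell2 X)} (hne : K.Nonempty) (hc : IsClosed K)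
    (hcv : Cvx K) : ∃ ω ∈ K, (∀ v ∈ K, ‖ω‖ ≤ ‖v‖) ∧ ∀ v ∈ K, ‖v‖ ≤ ‖ω‖ → v = ω :=
  exists_min_norm hne hc hcv

theorem exists_inv_aux (hα : Frame α) {c : ℝ} (hc : ∀ g, c ≤ p4 α g) :
    ∃ T : Ell2 Λ →L[ℂ] Ell2 (Λ × Λ × Λ), Good c T ∧
      T (dl 1) ∈ closure (ev '' hull (Set.range (Tg α))) ∧
      ∀ v ∈ closure (ev '' hull (Set.range (Tg α))), ‖v‖ ≤ ‖T (dl 1)‖ → v = T (dl 1) := by
  have hgood : hull (Set.range (Tg α)) ⊆ {T | Good c T} := hull_subset (cvx_good c) (by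
    rintro _ ⟨g, rfl⟩
    exact good_Tg hα hc g)
  have hKc : Cvx (closure (ev '' hull (Set.range (Tg α)))) := ((cvx_hull _).image ev).closure
  have hne : (closure (ev '' hull (Set.range (Tg α)))).Nonempty :=
    ⟨ev (Tg α 1), subset_closure ⟨_, subset_hull _ ⟨1, rfl⟩, rfl⟩⟩
  obtain ⟨ω, hω, hmin, huniq⟩ := min_norm_ell2 hne isClosed_closure hKc
  have h1 : ω ∈ closure ((fun T : Ell2 Λ →L[ℂ] Ell2 (Λ × Λ × Λ) => T (dl 1)) '' {T | Good c T}) := by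
    refine closure_mono ?_ hω
    rintro _ ⟨T, hT, rfl⟩
    exact ⟨T, hgood hT, rfl⟩
  obtain ⟨T, hT, hTω⟩ := good_closed (c := c) (ω := ω) h1
  refine ⟨T, hT, ?_, ?_⟩
  · rw [hTω]; exact hω
  · rw [hTω]; exact huniq

theorem ext3 {S T : Ell2 Λ →L[ℂ] Ell2 (Λ × Λ × Λ)} (hS : ∀ s v, S (rho s v) = rho (ι3 s) (S v))
    (hT : ∀ s v, T (rho s v) = rho (ι3 s) (T v)) (h : S (dl 1) = T (dl 1)) : S = T := by
  apply op_ext
  intro x
  rw [dl_eq_rho, hS, hT, h]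

theorem conj_eq_imp (hα : Frame α) {T : Ell2 Λ →L[ℂ] Ell2 (Λ × Λ × Λ)}
    (hT : ∀ s v, T (rho s v) = rho (ι3 s) (T v)) (g : Γ)
    (hinv : (A3 α g ∘L T ∘L α g⁻¹) (dl 1) = T (dl 1)) (v : Ell2 Λ) :
    T (α g v) = A3 α g (T v) := by
  have h1 : A3 α g ∘L T ∘L α g⁻¹ = T :=
    ext3 (conj_rho hα hT g) hT hinv
  have h2 : (A3 α g ∘L T ∘L α g⁻¹) (α g v) = T (α g v) := by rw [h1]
  change A3 α g (T (α g⁻¹ (α g v))) = T (α g v) at h2
  have h3 : α g⁻¹ (α g v) = v := hα.reg.inv_apply g v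
  rw [h3] at h2
  exact h2.symm

/-- The invariant cubic intertwiner. -/
theorem exists_invariant (hα : Frame α) {c : ℝ} (hc : ∀ g, c ≤ p4 α g) :
    ∃ T : Ell2 Λ →L[ℂ] Ell2 (Λ × Λ × Λ), Good c T ∧ ∀ g v, T (α g v) = A3 α g (T v) := by
  obtain ⟨T, hT, hmem, huniq⟩ := exists_inv_aux hα hc
  refine ⟨T, hT, fun g v => conj_eq_imp hα hT.rho_map g ?_ v⟩
  have h3 := conj_mem_closure hα hc hT.rho_map hmem g
  have h4 := (conj_norm hα g hT.rho_map).le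
  exact huniq _ h3 h4

end cubic

end Vale.Agent.P092.H160
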