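import Mathlib

/-!
Definitions for P092: the Hilbert space of square summable functions on a group, the left regular
representation, the group von Neumann algebra and the height of an operator.
-/

namespace Vale.Agent.P092.H160

/-- The Hilbert space `ℓ²(X)`. -/
abbrev Ell2 (X : Type) : Type := lp (fun _ : X => ℂ) 2

open Classical in
/-- The basis vector `δ_x` of `ℓ²(X)`. -/
noncomputable def dl {X : Type} (x : X) : Ell2 X := lp.single 2 x (1 : ℂ)

theorem memlp_rei {X Y : Type} (e : X ≃ Y) (ξ : Ell2 X) :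
    Memℓp (fun y : Y => (ξ (e.symm y) : ℂ)) 2 := by
  have h := lp.memℓp ξ
  rw [memℓp_gen_iff (by norm_num)] at h ⊢
  exact (Equiv.summable_iff e.symm).mpr h

/-- For a bijection `e : X ≃ Y`, the unitary `ξ ↦ ξ ∘ e⁻¹` from `ℓ²(X)` to `ℓ²(Y)`. -/
noncomputable def rei {X Y : Type} (e : X ≃ Y) : Ell2 X →L[ℂ] Ell2 Y :=
  LinearMap.mkContinuous
    { toFun := fun ξ => ⟨fun h => ξ (e.symm h), memlp_rei e ξ⟩
      map_add' := fun ξ η => rfl
      map_smul' := fun c ξ => rfl }
    1 (fun ξ => by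
      rw [one_mul, lp.norm_eq_tsum_rpow (by norm_num), lp.norm_eq_tsum_rpow (by norm_num)]
      apply le_of_eq
      congr 1
      exact Equiv.tsum_eq e.symm (fun h => ‖ξ h‖ ^ (ENNReal.toReal 2)))

/-- The left regular representation: `(λ(g) ξ)(h) = ξ(g⁻¹ h)`. -/
noncomputable def lam {G : Type} [Group G] (g : G) : Ell2 G →L[ℂ] Ell2 G :=
  rei (Equiv.mulLeft g)

/-- The von Neumann algebra `S''` generated by a set `S` of bounded operators on `ℓ²(X)`
(the double commutant of `S ∪ S*`). -/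
noncomputable def vNA {X : Type} (S : Set (Ell2 X →L[ℂ] Ell2 X)) :
    StarSubalgebra ℂ (Ell2 X →L[ℂ] Ell2 X) :=
  StarSubalgebra.centralizer ℂ
    (StarSubalgebra.centralizer ℂ S : Set (Ell2 X →L[ℂ] Ell2 X))

/-- The group von Neumann algebra `L(G) = λ(G)''`. -/
noncomputable def LG (G : Type) [Group G] : StarSubalgebra ℂ (Ell2 G →L[ℂ] Ell2 G) :=
  vNA (Set.range (lam (G := G)))

@[simp] theorem rei_apply {X Y : Type} (e : X ≃ Y) (ξ : Ell2 X) (y : Y) :
    rei e ξ y = ξ (e.symm y) := rfl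

@[simp] theorem lam_apply {G : Type} [Group G] (g : G) (ξ : Ell2 G) (h : G) :
    lam g ξ h = ξ (g⁻¹ * h) := rfl

theorem lam_mem_LG {G : Type} [Group G] (g : G) : lam g ∈ LG G := by
  rw [LG, vNA, StarSubalgebra.mem_centralizer_iff]
  intro y hy
  have hy' : y ∈ StarSubalgebra.centralizer ℂ (Set.range (lam (G := G))) := hy
  have hstar := star_mem hy'
  rw [StarSubalgebra.mem_centralizer_iff] at hy' hstar
  exact ⟨((hy' (lam g) ⟨g, rfl⟩).1).symm, ((hstar (lam g) ⟨g, rfl⟩).1).symm⟩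

/-- The canonical unitary `u_g` of `L(G)`. -/
noncomputable def uu {G : Type} [Group G] (g : G) : LG G := ⟨lam g, lam_mem_LG g⟩

open scoped InnerProductSpace in
/-- The canonical trace `τ(T) = ⟨T δ_e, δ_e⟩` (Mathlib's inner product is linear on the right). -/
noncomputable def tr {G : Type} [Group G] (T : LG G) : ℂ :=
  ⟪(dl 1 : Ell2 G), (T : Ell2 G →L[ℂ] Ell2 G) (dl 1)⟫_ℂ

/-- The height of `T ∈ L(G)`: the supremum over `s` of the absolute values of the Fourier
coefficients `τ(T u_s*)`. -/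
noncomputable def height {G : Type} [Group G] (T : LG G) : ℝ := ⨆ s : G, ‖tr (T * star (uu s))‖

/-- An isomorphism `θ : L(Γ) → L(Λ)` is canonical if it has the form
`u_g ↦ χ(g) w v_{δ(g)} w*` for a group isomorphism `δ`, a character `χ` with values in the circle
and a unitary `w ∈ L(Λ)`. -/
def Canonical {Γ Λ : Type} [Group Γ] [Group Λ] (θ : LG Γ ≃⋆ₐ[ℂ] LG Λ) : Prop :=
  ∃ (δ : Γ ≃* Λ) (χ : Γ →* Circle) (w : unitary (LG Λ)),
    ∀ g : Γ, θ (uu g) = (χ g : ℂ) • ((w : LG Λ) * uu (δ g) * star (w : LG Λ))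

end Vale.Agent.P092.H160
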