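import Vale.Agent.P092.H160.Comm

/-!
A common eigenvector of the slices, and the form of the intertwiner on it.
-/

set_option linter.all false

open scoped InnerProductSpace
open Filter Topology ContinuousLinearMap

namespace Vale.Agent.P092.H160

/-- Common eigenvectors of commuting operators with a finite dimensional invariant subspace. -/
theorem common_eig {I V : Type} [AddCommGroup V] [Module ℂ V] (f : I → V →ₗ[ℂ] V)
    (hc : ∀ i j v, f i (f j v) = f j (f i v)) :
    ∀ (n : ℕ) (W : Submodule ℂ V), FiniteDimensional ℂ W → Module.finrank ℂ W = n → W ≠ ⊥ →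
      (∀ i, ∀ w ∈ W, f i w ∈ W) → ∃ e ∈ W, e ≠ 0 ∧ ∀ i, ∃ ν : ℂ, f i e = ν • e := by
  intro n
  induction n using Nat.strong_induction_on with
  | _ n ih =>
    intro W hfd hn hW hinv
    by_cases hs : ∀ i, ∃ ν : ℂ, ∀ w ∈ W, f i w = ν • w
    · obtain ⟨e, he, hne⟩ := Submodule.exists_mem_ne_zero_of_ne_bot hW
      exact ⟨e, he, hne, fun i => (hs i).imp fun ν hν => hν e he⟩
    · push Not at hs
      obtain ⟨i, hi⟩ := hs
      haveI : Nontrivial W := Submodule.nontrivial_iff_ne_bot.mpr hW
      obtain ⟨ν, hν⟩ := Module.End.exists_eigenvalue ((f i).restrict (hinv i))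
      obtain ⟨w, hw⟩ := hν.exists_hasEigenvector
      have hw1 : f i (w : V) = ν • (w : V) := by
        have := congrArg Subtype.val hw.apply_eq_smul
        simpa using this
      have hw0 : (w : V) ≠ 0 := fun h => hw.2 (Subtype.ext h)
      set W' : Submodule ℂ V := W ⊓ LinearMap.ker (f i - ν • LinearMap.id) with hW'
      have hmem : ∀ v, v ∈ W' ↔ v ∈ W ∧ f i v = ν • v := by
        intro v
        rw [hW', Submodule.mem_inf, LinearMap.mem_ker, LinearMap.sub_apply, LinearMap.smul_apply,
          LinearMap.id_apply, sub_eq_zero]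
      have hle : W' ≤ W := inf_le_left
      have hlt : W' < W := by
        refine lt_of_le_of_ne hle fun h => ?_
        obtain ⟨v, hv, hne⟩ := hi ν
        rw [← h] at hv
        exact hne ((hmem v).mp hv).2
      haveI : FiniteDimensional ℂ W' := Submodule.finiteDimensional_of_le hle
      have hlt' : Module.finrank ℂ W' < n := by
        rw [← hn]
        exact Submodule.finrank_lt_finrank_of_lt hlt
      obtain ⟨e, he, h1, h2⟩ := ih _ hlt' W' inferInstance rfl
        (fun h => hw0 (by
          have : (w : V) ∈ W' := (hmem _).mpr ⟨w.2, hw1⟩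
          rw [h] at this
          exact (Submodule.mem_bot ℂ).mp this))
        (fun j v hv => by
          rw [hmem] at hv ⊢
          exact ⟨hinv j v hv.1, by rw [hc, hv.2, map_smul]⟩)
      exact ⟨e, hle he, h1, h2⟩

section compact

variable {X : Type}

/-- The coordinate projection on a finite set. -/
noncomputable def cp (s : Finset X) : Ell2 X →L[ℂ] Ell2 X :=
  ∑ x ∈ s, (innerSL ℂ (dl x : Ell2 X)).smulRight (dl x)

theorem cp_apply [DecidableEq X] (s : Finset X) (v : Ell2 X) (x : X) :
    cp s v x = if x ∈ s then v x else 0 := by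
  rw [cp, sum_apply, lp.coeFn_sum, Finset.sum_apply]
  have h : ∀ y ∈ s, ((innerSL ℂ (dl y : Ell2 X)).smulRight (dl y) v) x =
      if x = y then v x else 0 := by
    intro y _
    change ⟪(dl y : Ell2 X), v⟫_ℂ * (dl y : Ell2 X) x = _
    rw [inner_dl, dl_apply]
    split_ifs with h
    · rw [h, mul_one]
    · rw [mul_zero]
  rw [Finset.sum_congr rfl h, Finset.sum_ite_eq]

theorem compact_cp (s : Finset X) : IsCompactOperator (cp s) := by
  classical
  rw [cp]
  induction s using Finset.induction_on with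
  | empty => rw [Finset.sum_empty]; exact isCompactOperator_zero
  | insert a s ha ih =>
    rw [Finset.sum_insert ha]
    refine IsCompactOperator.add ?_ ih
    have h1 : IsCompactOperator (innerSL ℂ (dl a : Ell2 X)) :=
      isCompactOperator_of_locallyCompactSpace_dom (innerSL ℂ (dl a : Ell2 X))
    exact h1.clm_comp (ContinuousLinearMap.toSpanSingleton ℂ (dl a : Ell2 X))

theorem compact_of_hs {L : Ell2 X →L[ℂ] Ell2 X}
    (h : Summable fun d : X => ‖adjoint L (dl d)‖ ^ 2) : IsCompactOperator L := by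
  classical
  set A : ℝ := ∑' d : X, ‖adjoint L (dl d)‖ ^ 2 with hA
  have hbound : ∀ s : Finset X, ‖cp s ∘L L - L‖ ^ 2 ≤ A - ∑ d ∈ s, ‖adjoint L (dl d)‖ ^ 2 := by
    intro s
    have hnn : 0 ≤ A - ∑ d ∈ s, ‖adjoint L (dl d)‖ ^ 2 :=
      sub_nonneg.mpr (h.sum_le_tsum s fun _ _ => by positivity)
    have h1 : ‖cp s ∘L L - L‖ ≤ Real.sqrt (A - ∑ d ∈ s, ‖adjoint L (dl d)‖ ^ 2) := by
      refine opNorm_le_bound _ (Real.sqrt_nonneg _) fun v => ?_
      refine abs_le_of_sq_le_sq' ?_ (by positivity) |>.2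
      rw [mul_pow, Real.sq_sqrt hnn, norm_sq]
      have h2 : HasSum (fun d => (‖adjoint L (dl d)‖ ^ 2 -
          if d ∈ s then ‖adjoint L (dl d)‖ ^ 2 else 0) * ‖v‖ ^ 2)
          ((A - ∑ d ∈ s, ‖adjoint L (dl d)‖ ^ 2) * ‖v‖ ^ 2) := by
        refine HasSum.mul_right _ (h.hasSum.sub ?_)
        have h3 : HasSum (fun d => if d ∈ s then ‖adjoint L (dl d)‖ ^ 2 else 0)
            (∑ d ∈ s, (if d ∈ s then ‖adjoint L (dl d)‖ ^ 2 else 0)) :=
          hasSum_sum_of_ne_finset_zero (fun d hd => if_neg hd)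
        have h4 : ∑ d ∈ s, (if d ∈ s then ‖adjoint L (dl d)‖ ^ 2 else 0) =
            ∑ d ∈ s, ‖adjoint L (dl d)‖ ^ 2 := Finset.sum_congr rfl fun d hd => if_pos hd
        rw [h4] at h3
        exact h3
      refine hasSum_le (fun d => ?_) (summable_sq _).hasSum h2
      have h5 : ((cp s ∘L L - L) v) d = (if d ∈ s then L v d else 0) - L v d := by
        change cp s (L v) d - L v d = _
        rw [cp_apply]
      rw [h5]
      split_ifs with hd
      · simp
      · rw [zero_sub, norm_neg, sub_zero, ← mul_pow]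
        have h6 : L v d = ⟪adjoint L (dl d), v⟫_ℂ := by
          rw [adjoint_inner_left, inner_dl]
        rw [h6]
        exact pow_le_pow_left₀ (norm_nonneg _) (norm_inner_le_norm _ _) 2
    calc ‖cp s ∘L L - L‖ ^ 2 ≤ (Real.sqrt (A - ∑ d ∈ s, ‖adjoint L (dl d)‖ ^ 2)) ^ 2 :=
          pow_le_pow_left₀ (norm_nonneg _) h1 2
      _ = _ := Real.sq_sqrt hnn
  have hlim : Tendsto (fun s : Finset X => cp s ∘L L) atTop (𝓝 L) := by
    rw [tendsto_iff_norm_sub_tendsto_zero]
    have h1 : Tendsto (fun s : Finset X => A - ∑ d ∈ s, ‖adjoint L (dl d)‖ ^ 2) atTop (𝓝 0) := by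
      have h2 : Tendsto (fun s : Finset X => ∑ d ∈ s, ‖adjoint L (dl d)‖ ^ 2) atTop (𝓝 A) := by
        have := h.hasSum
        simpa [HasSum] using this
      have h3 := (tendsto_const_nhds (x := A)).sub h2
      rwa [sub_self] at h3
    have h3 : Tendsto (fun s : Finset X => ‖cp s ∘L L - L‖ ^ 2) atTop (𝓝 0) :=
      squeeze_zero (fun _ => by positivity) hbound h1
    have h4 := (Real.continuous_sqrt.tendsto 0).comp h3
    rw [Real.sqrt_zero] at h4
    refine h4.congr fun s => ?_
    simp only [Function.comp_apply]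
    exact Real.sqrt_sq (norm_nonneg _)
  exact isCompactOperator_of_tendsto hlim (Eventually.of_forall fun s =>
    (compact_cp s).comp_clm L)

end compact

end Vale.Agent.P092.H160
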