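import Vale.Agent.P092.H160.TightP4
import Vale.Agent.P092.H108.PartOne
import Vale.Agent.P092.H350.PartTwo

/-!
The dichotomy for isomorphisms `L(Γ) → L(Λ)`, `Γ` of finite index in `SL_n(ℤ)`.
-/

set_option linter.all false

open scoped InnerProductSpace
open Filter Topology ContinuousLinearMap Matrix

namespace Vale.Agent.P092.H160

theorem goodRep_of_frame {n : ℕ} {Γ : Subgroup (SpecialLinearGroup (Fin n) ℤ)} {Λ : Type}
    [Group Λ] {α : Γ →* (Ell2 Λ →L[ℂ] Ell2 Λ)} (hα : Frame α) : H350.GoodRep α where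
  adj := hα.reg.adj
  rc g s ξ := by
    have h1 : (H350.rt s : Ell2 Λ →L[ℂ] Ell2 Λ) = rho s⁻¹ := by
      rw [rho, inv_inv]
      rfl
    rw [h1]
    exact hα.apply_comm g s⁻¹ ξ
  orth := hα.reg.inner_zero
  tot := by
    rw [Submodule.topologicalClosure_eq_top_iff, Submodule.eq_bot_iff]
    intro v hv
    refine hα.reg.total v fun g => ?_
    rw [Submodule.mem_orthogonal] at hv
    exact hv _ (Submodule.subset_span ⟨g, rfl⟩)

theorem main_dichotomy {n : ℕ} (hn : 3 ≤ n) (Γ : Subgroup (SpecialLinearGroup (Fin n) ℤ))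
    [Γ.FiniteIndex] (hΓ : ∀ g ∈ Γ, (g : Matrix (Fin n) (Fin n) ℤ) ≠ -1) {Λ : Type} [Group Λ]
    (θ : LG Γ ≃⋆ₐ[ℂ] LG Λ) :
    Canonical θ ∨ ∀ (x : Γ) (j : ℕ), x ^ j ≠ 1 →
      IsNilpotent ((((x ^ j : Γ) : SpecialLinearGroup (Fin n) ℤ) : Matrix (Fin n) (Fin n) ℤ) - 1) →
      Tendsto (fun N : ℕ => (∑ k ∈ Finset.range N, height (θ (uu (x ^ (k + 1))))) / N)
        atTop (𝓝 0) := by
  by_cases hall : ∀ (x : Γ) (j : ℕ), x ^ j ≠ 1 →
      IsNilpotent ((((x ^ j : Γ) : SpecialLinearGroup (Fin n) ℤ) : Matrix (Fin n) (Fin n) ℤ) - 1) →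
      Tendsto (fun N : ℕ => (∑ k ∈ Finset.range N, height (θ (uu (x ^ (k + 1))))) / N)
        atTop (𝓝 0)
  · exact Or.inr hall
  · left
    push Not at hall
    obtain ⟨x, j, hxj, hnil, hnot⟩ := hall
    have hicc := icc_of_fi (by omega) Γ hΓ
    have hF : Frame (alphaOf θ) := frame_of_iso hicc θ
    have h1 := H108.part_one (u := fun k : ℤ => alphaOf θ (x ^ k)) (by simp)
      (fun m n => by rw [_root_.zpow_add, map_mul])
      (fun n => by
        rw [star_eq_adjoint, hF.reg.adj, _root_.zpow_neg])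
      (fun n s => hF.comm _ s)
      (by
        intro h
        apply hnot
        refine h.congr fun N => ?_
        congr 1
        refine Finset.sum_congr rfl fun k _ => ?_
        rw [height_eq]
        have e : x ^ ((k : ℤ) + 1) = x ^ (k + 1) := by
          rw [← zpow_natCast]
          push_cast
          rfl
        rw [e]
        rfl)
    obtain ⟨ξ, hξ, ht⟩ := h1
    have ht' : H350.Tight (Set.range fun k : ℤ => alphaOf θ ((x ^ j) ^ k) ξ) := by
      intro ε hε
      obtain ⟨N, hN⟩ := ht ε hε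
      refine ⟨N, ?_⟩
      rintro _ ⟨k, rfl⟩
      refine hN _ ⟨(j : ℤ) * k, ?_⟩
      simp only
      rw [_root_.zpow_mul, zpow_natCast]
    have h2 := H350.GoodRep.part_two (goodRep_of_frame hF) hn hΓ (x ^ j) hxj hnil ξ hξ ht'
    obtain ⟨c, hc, hp⟩ := p4_of_tight hF h2
    exact canonical_of_form θ (canon_of_p4 hF hicc hc hp)

end Vale.Agent.P092.H160
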