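import Vale.Agent.P092.H160.Rep

/-!
Frames (the image of `Γ` under an isomorphism `L(Γ) → L(Λ)`), multiplicity one for intertwiners.
-/

set_option linter.all false

open scoped InnerProductSpace
open Filter Topology ContinuousLinearMap

namespace Vale.Agent.P092.H160

/-- A frame: a representation of `Γ` in `L(Λ)` with `δ_e` as a cyclic trace vector. -/
structure Frame {Γ Λ : Type} [Group Γ] [Group Λ] (α : Γ →* (Ell2 Λ →L[ℂ] Ell2 Λ)) : Prop where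
  reg : RegRep α (dl 1)
  comm : ∀ g s, α g * rho s = rho s * α g

section

variable {K : Type} [Group K]

theorem bes_of_orthonormal {X F : Type} [NormedAddCommGroup F] [InnerProductSpace ℂ F]
    {f : X → F} (h : Orthonormal ℂ f) : Bes 1 f := by
  intro s v
  rw [one_pow, one_mul]
  exact h.sum_inner_products_le v

theorem opOf_isometry {X F : Type} [NormedAddCommGroup F] [InnerProductSpace ℂ F]
    [CompleteSpace F] {f : X → F} (h : Orthonormal ℂ f) :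
    adjoint (opOf (bes_of_orthonormal h)) ∘L opOf (bes_of_orthonormal h) =
      ContinuousLinearMap.id ℂ _ := by
  classical
  apply op_ext
  intro x
  apply ext_inner_dl
  intro y
  rw [← inner_dl, comp_apply, adjoint_inner_right, opOf_dl, opOf_dl,
    orthonormal_iff_ite.mp h, ContinuousLinearMap.id_apply, dl_apply]

theorem norm_of_adj_comp {X F : Type} [NormedAddCommGroup F] [InnerProductSpace ℂ F]
    [CompleteSpace F] {V : Ell2 X →L[ℂ] F} (h : adjoint V ∘L V = ContinuousLinearMap.id ℂ _)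
    (u : Ell2 X) : ‖V u‖ = ‖u‖ := by
  have h2 : ⟪V u, V u⟫_ℂ = ⟪u, u⟫_ℂ := by
    rw [← adjoint_inner_right, ← comp_apply, h]; rfl
  rw [inner_self_eq_norm_sq_to_K, inner_self_eq_norm_sq_to_K] at h2
  have h3 : ‖V u‖ ^ 2 = ‖u‖ ^ 2 := by exact_mod_cast h2
  exact (pow_left_inj₀ (norm_nonneg _) (norm_nonneg _) two_ne_zero).mp h3

/-- The translates of a vector `η`, if orthonormal, form an orthonormal basis. -/
theorem orth_translates {η : Ell2 K} (h1 : ‖η‖ = 1) (h0 : ∀ x : K, x ≠ 1 → ⟪η, rho x η⟫_ℂ = 0) :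
    Orthonormal ℂ (fun x : K => rho x⁻¹ η) := by
  refine ⟨fun x => by rw [norm_rho, h1], fun x y hne => ?_⟩
  change ⟪rho x⁻¹ η, rho y⁻¹ η⟫_ℂ = 0
  have h2 := (regRep_rho (G := K)).inner_left x⁻¹ η (rho y⁻¹ η)
  rw [rhoH_apply, rhoH_apply, inv_inv] at h2
  rw [h2, ← mul_ap, ← rho_mul]
  refine h0 _ fun h3 => hne ?_
  rwa [mul_inv_eq_one] at h3

/-- The unitary `δ_x ↦ ρ(x⁻¹) η`. -/
theorem regRep_of_orth {η : Ell2 K} (h1 : ‖η‖ = 1) (h0 : ∀ x : K, x ≠ 1 → ⟪η, rho x η⟫_ℂ = 0) :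
    RegRep (rhoH (G := K)) η := by
  have ho := orth_translates h1 h0
  set V := opOf (bes_of_orthonormal ho) with hV
  have hVdl : ∀ x, V (dl x) = rho x⁻¹ η := fun x => opOf_dl _ x
  have hi : adjoint V * V = 1 := opOf_isometry ho
  have hc : Cmm rhoH V := by
    intro y
    apply op_ext
    intro x
    rw [mul_ap, mul_ap, rhoH_apply, rho_dl, hVdl, hVdl, mul_inv_rev, inv_inv, rho_mul]
    rfl
  have hf := regRep_rho.finite hc hi
  refine ⟨fun g => adjoint_rho g, h1, fun g hg => h0 g hg, fun v hv => ?_⟩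
  have h2 : adjoint V v = 0 := by
    refine eq_zero_of_inner_dl fun x => ?_
    rw [← inner_dl, adjoint_inner_right, hVdl]
    exact hv x⁻¹
  have h3 : (V * adjoint V) v = 0 := by rw [mul_ap, h2, map_zero]
  rw [hf] at h3
  exact h3

theorem total_of_orth {η : Ell2 K} (hη : η ≠ 0) (h0 : ∀ x : K, x ≠ 1 → ⟪η, rho x η⟫_ℂ = 0)
    {w : Ell2 K} (hw : ∀ x : K, ⟪rho x η, w⟫_ℂ = 0) : w = 0 := by
  have hn : ‖η‖ ≠ 0 := norm_ne_zero_iff.mpr hη
  have h1 : ‖((‖η‖⁻¹ : ℝ) : ℂ) • η‖ = 1 := by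
    rw [norm_smul]
    simp [hn]
  have h2 : RegRep (rhoH (G := K)) (((‖η‖⁻¹ : ℝ) : ℂ) • η) := by
    refine regRep_of_orth h1 fun x hx => ?_
    rw [map_smul, inner_smul_left, inner_smul_right, h0 x hx, mul_zero, mul_zero]
  refine h2.total w fun g => ?_
  rw [map_smul, inner_smul_left, rhoH_apply, hw g, mul_zero]

end

section

variable {Γ Λ K : Type} [Group Γ] [Group Λ] [Group K] {α : Γ →* (Ell2 Λ →L[ℂ] Ell2 Λ)}

theorem Frame.apply_comm (hα : Frame α) (g : Γ) (s : Λ) (v : Ell2 Λ) :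
    α g (rho s v) = rho s (α g v) := congrArg (fun T : Ell2 Λ →L[ℂ] Ell2 Λ => T v) (hα.comm g s)

theorem Frame.cmm_rho (hα : Frame α) (g : Γ) : Cmm rhoH (α g) := fun s => hα.comm g s

theorem Frame.cmm_alpha (hα : Frame α) (s : Λ) : Cmm α (rho s) := fun g => (hα.comm g s).symm

/-- An intertwiner from the frame to a representation on `ℓ²(K)`. -/
structure Itw (α : Γ →* (Ell2 Λ →L[ℂ] Ell2 Λ)) (ι : Λ →* K) (A : Γ →* (Ell2 K →L[ℂ] Ell2 K))
    (S : Ell2 Λ →L[ℂ] Ell2 K) : Prop where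
  rho_map : ∀ s v, S (rho s v) = rho (ι s) (S v)
  alpha_map : ∀ g v, S (α g v) = A g (S v)

theorem Itw.adj_alpha {ι : Λ →* K} {A : Γ →* (Ell2 K →L[ℂ] Ell2 K)} {S : Ell2 Λ →L[ℂ] Ell2 K}
    (hS : Itw α ι A S) (hα : RegRep α (dl 1)) (hA : ∀ g, adjoint (A g) = A g⁻¹) (g : Γ)
    (w : Ell2 K) : adjoint S (A g w) = α g (adjoint S w) := by
  refine ext_inner_left ℂ fun u => ?_
  rw [adjoint_inner_right, ← adjoint_inner_left, hA, ← hS.alpha_map, ← adjoint_inner_right S,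
    hα.inner_right]

theorem Itw.ext {ι : Λ →* K} {A : Γ →* (Ell2 K →L[ℂ] Ell2 K)} {S T : Ell2 Λ →L[ℂ] Ell2 K}
    (hS : ∀ s v, S (rho s v) = rho (ι s) (S v)) (hT : ∀ s v, T (rho s v) = rho (ι s) (T v))
    (h : S (dl 1) = T (dl 1)) : S = T := by
  apply op_ext
  intro x
  rw [dl_eq_rho, hS, hT, h]

theorem Itw.cmm {ι : Λ →* K} {A : Γ →* (Ell2 K →L[ℂ] Ell2 K)} (hA : ∀ g x, A g * rho x = rho x * A g)
    (hA' : ∀ g, adjoint (A g) = A g⁻¹) (hα : Frame α) {S T : Ell2 Λ →L[ℂ] Ell2 K}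
    (hS : Itw α ι A S) (hT : Itw α ι A T) (x : K) : Cmm α (adjoint S ∘L rho x ∘L T) := by
  intro g
  ext1 v
  change adjoint S (rho x (T (α g v))) = α g (adjoint S (rho x (T v)))
  have e : rho x (A g (T v)) = A g (rho x (T v)) :=
    (congrArg (fun L : Ell2 K →L[ℂ] Ell2 K => L (T v)) (hA g x)).symm
  rw [hT.alpha_map, e, hS.adj_alpha hα.reg hA']

/-- Coefficients of intertwiners vanish off the identity. -/
theorem coeff_zero (hα : Frame α) (ι : Λ →* K)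
    (hι : ∀ x : K, x ≠ 1 → Set.Infinite {y | ∃ s, y = ι s * x * (ι s)⁻¹})
    (A : Γ →* (Ell2 K →L[ℂ] Ell2 K)) (hA : ∀ g x, A g * rho x = rho x * A g)
    (hA' : ∀ g, adjoint (A g) = A g⁻¹) {S T : Ell2 Λ →L[ℂ] Ell2 K}
    (hS : Itw α ι A S) (hT : Itw α ι A T) (x : K) (hx : x ≠ 1) :
    ⟪S (dl 1), rho x (T (dl 1))⟫_ℂ = 0 := by
  have hinv : ∀ (x : K) (s : Λ), ⟪S (dl 1), rho (ι s * x * (ι s)⁻¹) (T (dl 1))⟫_ℂ =
      ⟪S (dl 1), rho x (T (dl 1))⟫_ℂ := by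
    intro x s
    set B : Ell2 Λ →L[ℂ] Ell2 Λ := adjoint S ∘L rho x ∘L T with hB
    have hBc : Cmm α B := Itw.cmm hA hA' hα hS hT x
    have e1 : ⟪S (dl 1), rho (ι s * x * (ι s)⁻¹) (T (dl 1))⟫_ℂ =
        ⟪dl 1, rho s ((B * rho s⁻¹) (dl 1))⟫_ℂ := by
      have e2 := (regRep_rho (G := K)).inner_right (ι s) (S (dl 1))
        (rho x (rho (ι s)⁻¹ (T (dl 1))))
      rw [rhoH_apply, rhoH_apply] at e2
      rw [rho_mul, rho_mul, mul_ap, mul_ap, e2, ← map_inv, ← hS.rho_map, ← hT.rho_map]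
      have e3 := (regRep_rho (G := Λ)).inner_right s (dl 1) ((B * rho s⁻¹) (dl 1))
      rw [rhoH_apply, rhoH_apply] at e3
      rw [e3, mul_ap]
      change _ = ⟪rho s⁻¹ (dl 1), adjoint S (rho x (T (rho s⁻¹ (dl 1))))⟫_ℂ
      rw [adjoint_inner_right]
    rw [e1, hα.reg.trace_comm (hα.cmm_alpha s) (hBc.mul (hα.cmm_alpha s⁻¹)), mul_ap,
      ← mul_ap (rho s⁻¹), ← rho_mul, inv_mul_cancel, rho_one, one_apply_eq_self]
    change ⟪dl 1, adjoint S (rho x (T (dl 1)))⟫_ℂ = _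
    rw [adjoint_inner_right]
  by_contra hn
  have h3 := (coeff_tendsto (S (dl 1)) (T (dl 1))).norm
  rw [norm_zero] at h3
  have hpos : 0 < ‖⟪S (dl 1), rho x (T (dl 1))⟫_ℂ‖ := norm_pos_iff.mpr hn
  have h4 := h3.eventually (gt_mem_nhds hpos)
  rw [Filter.eventually_cofinite] at h4
  refine hι x hx (h4.subset ?_)
  rintro y ⟨s, rfl⟩
  change ¬ (‖⟪S (dl 1), rho (ι s * x * (ι s)⁻¹) (T (dl 1))⟫_ℂ‖ < _)
  rw [hinv]
  exact lt_irrefl _

/-- Multiplicity one. -/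
theorem mult_one (hα : Frame α) (ι : Λ →* K)
    (hι : ∀ x : K, x ≠ 1 → Set.Infinite {y | ∃ s, y = ι s * x * (ι s)⁻¹})
    (A : Γ →* (Ell2 K →L[ℂ] Ell2 K)) (hA : ∀ g x, A g * rho x = rho x * A g)
    (hA' : ∀ g, adjoint (A g) = A g⁻¹) {S₁ S₂ : Ell2 Λ →L[ℂ] Ell2 K}
    (h1 : Itw α ι A S₁) (h2 : Itw α ι A S₂) (hη : S₁ (dl 1) ≠ 0) : ∃ c : ℂ, S₂ = c • S₁ := by
  have key : ∀ {S T : Ell2 Λ →L[ℂ] Ell2 K}, Itw α ι A S → Itw α ι A T → ∀ x : K, x ≠ 1 →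
      ⟪S (dl 1), rho x (T (dl 1))⟫_ℂ = 0 := fun hS hT x hx =>
    coeff_zero hα ι hι A hA hA' hS hT x hx
  set η := S₁ (dl 1) with hη'
  have hnorm : (⟪η, η⟫_ℂ) ≠ 0 := inner_self_ne_zero.mpr hη
  refine ⟨⟪η, S₂ (dl 1)⟫_ℂ / ⟪η, η⟫_ℂ, ?_⟩
  have hz : S₂ (dl 1) - (⟪η, S₂ (dl 1)⟫_ℂ / ⟪η, η⟫_ℂ) • η = 0 := by
    refine total_of_orth hη (fun x hx => key h1 h1 x hx) fun x => ?_
    have e := (regRep_rho (G := K)).inner_left x η
      (S₂ (dl 1) - (⟪η, S₂ (dl 1)⟫_ℂ / ⟪η, η⟫_ℂ) • η)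
    rw [rhoH_apply, rhoH_apply] at e
    rw [e, map_sub, map_smul, inner_sub_right, inner_smul_right]
    by_cases hx : x = 1
    · subst hx
      rw [inv_one, rho_one, one_apply_eq_self, one_apply_eq_self, div_mul_cancel₀ _ hnorm, sub_self]
    · have hx' : x⁻¹ ≠ 1 := fun h => hx (inv_eq_one.mp h)
      rw [key h1 h1 _ hx', key h1 h2 _ hx', mul_zero, sub_zero]
  refine Itw.ext (ι := ι) (A := A) h2.rho_map (fun s v => ?_) ?_
  · change (_ : ℂ) • S₁ (rho s v) = rho (ι s) ((_ : ℂ) • S₁ v)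
    rw [h1.rho_map, map_smul]
  · exact sub_eq_zero.mp hz

/-- `Λ` is ICC if `Γ` is. -/
theorem Frame.icc (hα : Frame α)
    (hΓ : ∀ g : Γ, g ≠ 1 → Set.Infinite {y : Γ | ∃ h, y = h * g * h⁻¹}) (s : Λ) (hs : s ≠ 1) :
    Set.Infinite {y : Λ | ∃ h, y = h * s * h⁻¹} := by
  classical
  intro hfin
  set C := hfin.toFinset with hC
  have hmem : ∀ c, c ∈ C ↔ ∃ h, c = h * s * h⁻¹ := fun c => by simp [hC]
  set z : Ell2 Λ →L[ℂ] Ell2 Λ := ∑ c ∈ C, lam c with hz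
  have hz1 : Cmm rhoH z := by
    intro t
    rw [hz, Finset.sum_mul, Finset.mul_sum]
    exact Finset.sum_congr rfl fun c _ => cmm_rho_lam c t
  have hz2 : Cmm lamH z := by
    intro t
    change z * lam t = lam t * z
    rw [hz, Finset.sum_mul, Finset.mul_sum]
    refine Finset.sum_bij (fun c _ => t⁻¹ * c * t) (fun c hc => ?_) (fun c _ d _ h => ?_)
      (fun c hc => ?_) (fun c _ => ?_)
    · rw [hmem] at hc ⊢
      obtain ⟨h, rfl⟩ := hc
      exact ⟨t⁻¹ * h, by group⟩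
    · simpa using h
    · rw [hmem] at hc
      obtain ⟨h, rfl⟩ := hc
      exact ⟨t * (h * s * h⁻¹) * t⁻¹, (hmem _).mpr ⟨t * h, by group⟩, by group⟩
    · rw [← lam_mul, ← lam_mul]
      congr 1
      group
  have hc : ∀ g s : Λ, lamH g * rhoH s = rhoH s * lamH g := fun g s => (rho_lam s g).symm
  have hcomm : ∀ g, α g * z = z * α g := fun g =>
    RegRep.commute regRep_lam regRep_rho hc (hα.cmm_rho g) hz2
  have hv : z (dl 1) = ⟪dl 1, z (dl 1)⟫_ℂ • dl 1 := by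
    refine hα.reg.icc_vec Set.univ (fun g hg => ?_) (fun k _ g => ?_)
    · simpa using hΓ g hg
    · rw [hα.reg.inner_left, hα.reg.inner_left]
      have e1 : (k * g * k⁻¹)⁻¹ = k * g⁻¹ * k⁻¹ := by group
      rw [e1, map_mul, map_mul, mul_ap, mul_ap]
      have e2 : α k⁻¹ (z (dl 1)) = z (α k⁻¹ (dl 1)) :=
        congrArg (fun T : Ell2 Λ →L[ℂ] Ell2 Λ => T (dl 1)) (hcomm k⁻¹)
      rw [e2, ← mul_ap z, ← mul_ap (α g⁻¹),
        regRep_rho.trace_comm (hα.cmm_rho k) ((hα.cmm_rho g⁻¹).mul (hz1.mul (hα.cmm_rho k⁻¹))),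
        mul_ap, mul_ap, hα.reg.inv_apply]
  have h1 : z (dl 1) = ∑ c ∈ C, dl c := by
    rw [hz, sum_apply]
    exact Finset.sum_congr rfl fun c _ => by rw [lam_dl, mul_one]
  have hs1 : s ∈ C := (hmem s).mpr ⟨1, by group⟩
  have h2 := congrArg (fun u : Ell2 Λ => u s) hv
  simp only [h1] at h2
  have h3 : (∑ c ∈ C, (dl c : Ell2 Λ)) s = 1 := by
    rw [lp.coeFn_sum, Finset.sum_apply, Finset.sum_eq_single s (fun c _ hne => dl_ne (Ne.symm hne))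
      (fun h => absurd hs1 h), dl_self]
  have h4 : (⟪dl 1, ∑ c ∈ C, (dl c : Ell2 Λ)⟫_ℂ • (dl 1 : Ell2 Λ)) s = 0 := by
    change _ * (dl 1 : Ell2 Λ) s = 0
    rw [dl_ne hs, mul_zero]
  rw [h3, h4] at h2
  exact one_ne_zero h2

end

end Vale.Agent.P092.H160
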