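import Vale.Agent.P092.H160.Basic

/-!
Tensor products of vectors and operators on `ℓ²(X × Y)`, and the conjugate of an operator.
-/

open scoped InnerProductSpace
open Filter Topology

namespace Vale.Agent.P092.H160

variable {X Y Z W X' Y' X'' Y'' : Type}

/-! ### Elementary tensors -/

/-- The elementary tensor `u ⊗ v`. -/
noncomputable def tv (u : Ell2 X) (v : Ell2 Y) : Ell2 (X × Y) :=
  mk2 (fun p => u p.1 * v p.2) (by
    have h := (summable_sq u).mul_of_nonneg (summable_sq v) (fun _ => by positivity)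
      (fun _ => by positivity)
    simpa only [norm_mul, mul_pow] using h)

@[simp] theorem tv_apply (u : Ell2 X) (v : Ell2 Y) (p : X × Y) : tv u v p = u p.1 * v p.2 := rfl

theorem tv_add_left (u u' : Ell2 X) (v : Ell2 Y) : tv (u + u') v = tv u v + tv u' v := by
  apply ext_inner_dl
  intro p
  change (u p.1 + u' p.1) * v p.2 = u p.1 * v p.2 + u' p.1 * v p.2
  ring

theorem tv_add_right (u : Ell2 X) (v v' : Ell2 Y) : tv u (v + v') = tv u v + tv u v' := by
  apply ext_inner_dl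
  intro p
  change u p.1 * (v p.2 + v' p.2) = u p.1 * v p.2 + u p.1 * v' p.2
  ring

theorem tv_smul_left (c : ℂ) (u : Ell2 X) (v : Ell2 Y) : tv (c • u) v = c • tv u v := by
  apply ext_inner_dl
  intro p
  change (c * u p.1) * v p.2 = c * (u p.1 * v p.2)
  ring

theorem tv_smul_right (c : ℂ) (u : Ell2 X) (v : Ell2 Y) : tv u (c • v) = c • tv u v := by
  apply ext_inner_dl
  intro p
  change u p.1 * (c * v p.2) = c * (u p.1 * v p.2)
  ring

theorem tv_zero_left (v : Ell2 Y) : tv (0 : Ell2 X) v = 0 := by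
  have := tv_smul_left (0 : ℂ) (0 : Ell2 X) v
  simpa using this

theorem tv_zero_right (u : Ell2 X) : tv u (0 : Ell2 Y) = 0 := by
  have := tv_smul_right (0 : ℂ) u (0 : Ell2 Y)
  simpa using this

theorem inner_tv (u u' : Ell2 X) (v v' : Ell2 Y) :
    ⟪tv u v, tv u' v'⟫_ℂ = ⟪u, u'⟫_ℂ * ⟪v, v'⟫_ℂ := by
  have h := hasSum_inner' (tv u v) (tv u' v')
  have h2 : (fun p : X × Y => tv u' v' p * (starRingEnd ℂ) (tv u v p)) =
      fun p : X × Y => (u' p.1 * (starRingEnd ℂ) (u p.1)) * (v' p.2 * (starRingEnd ℂ) (v p.2)) := by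
    funext p
    rw [tv_apply, tv_apply, map_mul]
    ring
  rw [h2] at h
  have h3 := hasSum_inner' u u'
  have h4 := hasSum_inner' v v'
  have h5 := HasSum.mul h3 h4 h.summable
  exact h.unique h5

theorem norm_tv (u : Ell2 X) (v : Ell2 Y) : ‖tv u v‖ = ‖u‖ * ‖v‖ := by
  have h := inner_tv u u v v
  rw [inner_self_eq_norm_sq_to_K, inner_self_eq_norm_sq_to_K, inner_self_eq_norm_sq_to_K,
    ← mul_pow] at h
  have h2 : ‖tv u v‖ ^ 2 = (‖u‖ * ‖v‖) ^ 2 := by
    exact_mod_cast h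
  exact (pow_left_inj₀ (norm_nonneg _) (by positivity) two_ne_zero).mp h2

theorem dl_prod (x : X) (y : Y) : (dl (x, y) : Ell2 (X × Y)) = tv (dl x) (dl y) := by
  classical
  apply ext_inner_dl
  rintro ⟨a, b⟩
  rw [tv_apply, dl_apply, dl_apply, dl_apply]
  by_cases h1 : a = x <;> by_cases h2 : b = y <;> simp [h1, h2]

/-- `u ↦ u ⊗ v`. -/
noncomputable def tvl (v : Ell2 Y) : Ell2 X →L[ℂ] Ell2 (X × Y) :=
  LinearMap.mkContinuous
    { toFun := fun u => tv u v
      map_add' := fun u u' => tv_add_left u u' v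
      map_smul' := fun c u => tv_smul_left c u v } ‖v‖
    (fun u => by
      change ‖tv u v‖ ≤ _
      rw [norm_tv, mul_comm])

@[simp] theorem tvl_apply (v : Ell2 Y) (u : Ell2 X) : tvl v u = tv u v := rfl

/-- `v ↦ u ⊗ v`. -/
noncomputable def tvr (u : Ell2 X) : Ell2 Y →L[ℂ] Ell2 (X × Y) :=
  LinearMap.mkContinuous
    { toFun := fun v => tv u v
      map_add' := fun v v' => tv_add_right u v v'
      map_smul' := fun c v => tv_smul_right c u v } ‖u‖
    (fun v => by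
      change ‖tv u v‖ ≤ _
      rw [norm_tv])

@[simp] theorem tvr_apply (u : Ell2 X) (v : Ell2 Y) : tvr u v = tv u v := rfl

/-! ### Slices -/

/-- The slice `f(x, ·)`. -/
noncomputable def sl (f : Ell2 (X × Y)) (x : X) : Ell2 Y :=
  mk2 (fun y => f (x, y)) ((summable_sq f).comp_injective (Prod.mk_right_injective x))

@[simp] theorem sl_apply (f : Ell2 (X × Y)) (x : X) (y : Y) : sl f x y = f (x, y) := rfl

theorem sl_add (f g : Ell2 (X × Y)) (x : X) : sl (f + g) x = sl f x + sl g x := rfl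
theorem sl_smul (c : ℂ) (f : Ell2 (X × Y)) (x : X) : sl (c • f) x = c • sl f x := rfl

theorem hasSum_sl (f : Ell2 (X × Y)) : HasSum (fun x => ‖sl f x‖ ^ 2) (‖f‖ ^ 2) := by
  have h := summable_sq f
  have h1 : HasSum (fun p => ‖f p‖ ^ 2) (‖f‖ ^ 2) := by
    rw [norm_sq]; exact h.hasSum
  refine h1.prod_fiberwise fun x => ?_
  rw [norm_sq]
  exact (h.comp_injective (Prod.mk_right_injective x)).hasSum

theorem norm_sl_le (f : Ell2 (X × Y)) (x : X) : ‖sl f x‖ ≤ ‖f‖ := by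
  have h : ‖sl f x‖ ^ 2 ≤ ‖f‖ ^ 2 :=
    le_hasSum (hasSum_sl f) x (fun _ _ => by positivity)
  exact (pow_le_pow_iff_left₀ (norm_nonneg _) (norm_nonneg _) two_ne_zero).mp h

theorem sl_tv (u : Ell2 X) (v : Ell2 Y) (x : X) : sl (tv u v) x = u x • v := rfl

/-! ### Ampliations -/

theorem summable_opsl (S : Ell2 Y →L[ℂ] Ell2 Z) (f : Ell2 (X × Y)) :
    Summable fun x : X => ‖S (sl f x)‖ ^ 2 := by
  have h3 := (hasSum_sl f).summable.mul_left (‖S‖ ^ 2)
  refine Summable.of_nonneg_of_le (fun _ => by positivity) (fun x => ?_) h3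
  have h4 := S.le_opNorm (sl f x)
  have h5 := pow_le_pow_left₀ (norm_nonneg _) h4 2
  rw [mul_pow] at h5
  exact h5

theorem summable_amp (S : Ell2 Y →L[ℂ] Ell2 Z) (f : Ell2 (X × Y)) :
    Summable fun p : X × Z => ‖S (sl f p.1) p.2‖ ^ 2 := by
  rw [summable_prod_of_nonneg (fun _ => by positivity)]
  refine ⟨fun x => summable_sq (S (sl f x)), ?_⟩
  have h : (fun x : X => ∑' z : Z, ‖S (sl f x) z‖ ^ 2) = fun x : X => ‖S (sl f x)‖ ^ 2 :=
    funext fun x => (norm_sq (S (sl f x))).symm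
  change Summable (fun x : X => ∑' z : Z, ‖S (sl f x) z‖ ^ 2)
  rw [h]
  exact summable_opsl S f

theorem amp_norm_le (S : Ell2 Y →L[ℂ] Ell2 Z) (f : Ell2 (X × Y)) :
    ∑' p : X × Z, ‖S (sl f p.1) p.2‖ ^ 2 ≤ (‖S‖ * ‖f‖) ^ 2 := by
  have h0 := summable_amp S f
  have h1 := h0.hasSum
  have h2 : HasSum (fun x : X => ‖S (sl f x)‖ ^ 2) (∑' p : X × Z, ‖S (sl f p.1) p.2‖ ^ 2) := by
    refine h1.prod_fiberwise fun x => ?_
    have h5 := norm_sq (S (sl f x))
    rw [h5]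
    exact (summable_sq (S (sl f x))).hasSum
  have h3 := (hasSum_sl f).mul_left (‖S‖ ^ 2)
  rw [mul_pow]
  refine hasSum_le (fun x => ?_) h2 h3
  have h4 := S.le_opNorm (sl f x)
  have h5 := pow_le_pow_left₀ (norm_nonneg _) h4 2
  rw [mul_pow] at h5
  exact h5

/-- The operator `1 ⊗ S`, on vectors. -/
noncomputable def ampF (S : Ell2 Y →L[ℂ] Ell2 Z) (f : Ell2 (X × Y)) : Ell2 (X × Z) :=
  mk2 (fun p : X × Z => S (sl f p.1) p.2) (summable_amp S f)

theorem norm_ampF_le (S : Ell2 Y →L[ℂ] Ell2 Z) (f : Ell2 (X × Y)) :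
    ‖ampF S f‖ ≤ ‖S‖ * ‖f‖ := by
  refine abs_le_of_sq_le_sq' ?_ (by positivity) |>.2
  rw [norm_sq]
  exact amp_norm_le S f

/-- The operator `1 ⊗ S`. -/
noncomputable def ampR (X : Type) (S : Ell2 Y →L[ℂ] Ell2 Z) :
    Ell2 (X × Y) →L[ℂ] Ell2 (X × Z) :=
  LinearMap.mkContinuous
    { toFun := fun f => ampF S f
      map_add' := fun f g => by
        apply ext_inner_dl
        intro p
        change S (sl (f + g) p.1) p.2 = S (sl f p.1) p.2 + S (sl g p.1) p.2
        rw [sl_add, map_add]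
        rfl
      map_smul' := fun c f => by
        apply ext_inner_dl
        intro p
        change S (sl (c • f) p.1) p.2 = c * S (sl f p.1) p.2
        rw [sl_smul, map_smul]
        rfl } ‖S‖
    (fun f => norm_ampF_le S f)

theorem ampR_apply (S : Ell2 Y →L[ℂ] Ell2 Z) (f : Ell2 (X × Y)) (x : X) (z : Z) :
    ampR X S f (x, z) = S (sl f x) z := rfl

theorem sl_ampR (S : Ell2 Y →L[ℂ] Ell2 Z) (f : Ell2 (X × Y)) (x : X) :
    sl (ampR X S f) x = S (sl f x) := rfl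

theorem ampR_tv (S : Ell2 Y →L[ℂ] Ell2 Z) (u : Ell2 X) (v : Ell2 Y) :
    ampR X S (tv u v) = tv u (S v) := by
  apply ext_inner_dl
  rintro ⟨x, z⟩
  rw [ampR_apply, sl_tv, map_smul]
  rfl

/-- The coordinate swap. -/
noncomputable def sw : Ell2 (X × Y) →L[ℂ] Ell2 (Y × X) := rei (Equiv.prodComm X Y)

theorem sw_apply (f : Ell2 (X × Y)) (p : Y × X) : sw f p = f (p.2, p.1) := rfl

theorem sw_tv (u : Ell2 X) (v : Ell2 Y) : sw (tv u v) = tv v u := by
  apply ext_inner_dl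
  rintro ⟨x, z⟩
  rw [sw_apply, tv_apply, tv_apply, mul_comm]

/-- The operator `S ⊗ 1`. -/
noncomputable def ampL (Y : Type) (S : Ell2 X →L[ℂ] Ell2 Z) :
    Ell2 (X × Y) →L[ℂ] Ell2 (Z × Y) := sw ∘L ampR Y S ∘L sw

theorem ampL_tv (S : Ell2 X →L[ℂ] Ell2 Z) (u : Ell2 X) (v : Ell2 Y) :
    ampL Y S (tv u v) = tv (S u) v := by
  change sw (ampR Y S (sw (tv u v))) = _
  rw [sw_tv, ampR_tv, sw_tv]

/-- The tensor product of two operators. -/
noncomputable def tens (A : Ell2 X →L[ℂ] Ell2 X') (B : Ell2 Y →L[ℂ] Ell2 Y') :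
    Ell2 (X × Y) →L[ℂ] Ell2 (X' × Y') := ampL Y' A ∘L ampR X B

theorem tens_tv (A : Ell2 X →L[ℂ] Ell2 X') (B : Ell2 Y →L[ℂ] Ell2 Y') (u : Ell2 X)
    (v : Ell2 Y) : tens A B (tv u v) = tv (A u) (B v) := by
  change ampL Y' A (ampR X B (tv u v)) = _
  rw [ampR_tv, ampL_tv]

theorem tens_dl (A : Ell2 X →L[ℂ] Ell2 X') (B : Ell2 Y →L[ℂ] Ell2 Y') (x : X) (y : Y) :
    tens A B (dl (x, y)) = tv (A (dl x)) (B (dl y)) := by
  rw [dl_prod, tens_tv]

theorem tens_comp (A : Ell2 X →L[ℂ] Ell2 X') (B : Ell2 Y →L[ℂ] Ell2 Y')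
    (A' : Ell2 X' →L[ℂ] Ell2 X'') (B' : Ell2 Y' →L[ℂ] Ell2 Y'') :
    tens A' B' ∘L tens A B = tens (A' ∘L A) (B' ∘L B) := by
  apply op_ext
  rintro ⟨x, y⟩
  rw [ContinuousLinearMap.comp_apply, tens_dl, tens_dl, tens_tv]
  rfl

theorem tens_mul (A A' : Ell2 X →L[ℂ] Ell2 X) (B B' : Ell2 Y →L[ℂ] Ell2 Y) :
    tens (A' * A) (B' * B) = tens A' B' * tens A B := (tens_comp A B A' B').symm

theorem tens_one : tens (1 : Ell2 X →L[ℂ] Ell2 X) (1 : Ell2 Y →L[ℂ] Ell2 Y) = 1 := by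
  apply op_ext
  rintro ⟨x, y⟩
  rw [tens_dl, one_apply_eq_self, one_apply_eq_self,
    one_apply_eq_self, dl_prod]

theorem adjoint_tens (A : Ell2 X →L[ℂ] Ell2 X') (B : Ell2 Y →L[ℂ] Ell2 Y') :
    ContinuousLinearMap.adjoint (tens A B) =
      tens (ContinuousLinearMap.adjoint A) (ContinuousLinearMap.adjoint B) := by
  apply op_ext
  rintro ⟨x, y⟩
  apply ext_inner_dl
  rintro ⟨a, b⟩
  rw [← inner_dl, ContinuousLinearMap.adjoint_inner_right, tens_dl, tens_dl, dl_prod, inner_tv,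
    tv_apply, ← ContinuousLinearMap.adjoint_inner_right, ← ContinuousLinearMap.adjoint_inner_right,
    inner_dl, inner_dl]

theorem tens_rei (e : X ≃ X') (f : Y ≃ Y') :
    tens (rei e) (rei f) = rei (Equiv.prodCongr e f) := by
  apply op_ext
  rintro ⟨x, y⟩
  rw [tens_dl, rei_dl, rei_dl, rei_dl]
  exact (dl_prod _ _).symm

theorem tens_rho {G H : Type} [Group G] [Group H] (g : G) (h : H) :
    tens (rho g) (rho h) = rho (g, h) := by
  rw [rho, rho, rho, tens_rei]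
  rfl

/-! ### Conjugation -/

/-- The coordinatewise complex conjugate. -/
noncomputable def cj (u : Ell2 X) : Ell2 X :=
  mk2 (fun x => (starRingEnd ℂ) (u x)) (by simpa only [RCLike.norm_conj] using summable_sq u)

@[simp] theorem cj_apply (u : Ell2 X) (x : X) : cj u x = (starRingEnd ℂ) (u x) := rfl

theorem cj_cj (u : Ell2 X) : cj (cj u) = u := by
  apply ext_inner_dl; intro x; rw [cj_apply, cj_apply, Complex.conj_conj]

theorem cj_add (u v : Ell2 X) : cj (u + v) = cj u + cj v := by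
  apply ext_inner_dl; intro x
  change (starRingEnd ℂ) (u x + v x) = (starRingEnd ℂ) (u x) + (starRingEnd ℂ) (v x)
  rw [map_add]

theorem cj_smul (c : ℂ) (u : Ell2 X) : cj (c • u) = (starRingEnd ℂ) c • cj u := by
  apply ext_inner_dl; intro x
  change (starRingEnd ℂ) (c * u x) = (starRingEnd ℂ) c * (starRingEnd ℂ) (u x)
  rw [map_mul]

theorem norm_cj (u : Ell2 X) : ‖cj u‖ = ‖u‖ := by
  have h : ‖cj u‖ ^ 2 = ‖u‖ ^ 2 := by
    rw [norm_sq, norm_sq]
    simp only [cj_apply, RCLike.norm_conj]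
  exact (pow_left_inj₀ (norm_nonneg _) (norm_nonneg _) two_ne_zero).mp h

theorem cj_dl (x : X) : cj (dl x) = dl x := by
  classical
  apply ext_inner_dl; intro y
  rw [cj_apply, dl_apply]
  split_ifs <;> simp

theorem inner_cj (u v : Ell2 X) : ⟪cj u, cj v⟫_ℂ = ⟪v, u⟫_ℂ := by
  rw [inner_eq, inner_eq]
  congr 1
  funext x
  rw [cj_apply, cj_apply, Complex.conj_conj, mul_comm]

theorem inner_cj_cj (u v : Ell2 X) : ⟪cj u, cj v⟫_ℂ = (starRingEnd ℂ) ⟪u, v⟫_ℂ := by
  rw [inner_cj, inner_conj_symm]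

theorem cj_tv (u : Ell2 X) (v : Ell2 Y) : cj (tv u v) = tv (cj u) (cj v) := by
  apply ext_inner_dl; intro y
  rw [cj_apply, tv_apply, tv_apply, map_mul]
  rfl

/-- The conjugate operator. -/
noncomputable def bar (S : Ell2 X →L[ℂ] Ell2 Y) : Ell2 X →L[ℂ] Ell2 Y :=
  LinearMap.mkContinuous
    { toFun := fun v => cj (S (cj v))
      map_add' := fun u v => by rw [cj_add, map_add, cj_add]
      map_smul' := fun c v => by
        rw [cj_smul, map_smul, cj_smul, Complex.conj_conj]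
        rfl } ‖S‖
    (fun v => by
      change ‖cj (S (cj v))‖ ≤ _
      rw [norm_cj]
      refine (S.le_opNorm _).trans ?_
      rw [norm_cj])

theorem bar_apply (S : Ell2 X →L[ℂ] Ell2 Y) (v : Ell2 X) : bar S v = cj (S (cj v)) := rfl

theorem bar_cj (S : Ell2 X →L[ℂ] Ell2 Y) (v : Ell2 X) : bar S (cj v) = cj (S v) := by
  rw [bar_apply, cj_cj]

theorem bar_dl (S : Ell2 X →L[ℂ] Ell2 Y) (x : X) : bar S (dl x) = cj (S (dl x)) := by
  rw [bar_apply, cj_dl]

theorem bar_comp (S : Ell2 X →L[ℂ] Ell2 Y) (T : Ell2 Y →L[ℂ] Ell2 Z) :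
    bar (T ∘L S) = bar T ∘L bar S := by
  ext1 v
  rw [bar_apply, ContinuousLinearMap.comp_apply, ContinuousLinearMap.comp_apply, bar_apply,
    bar_apply, cj_cj]

theorem bar_mul (S T : Ell2 X →L[ℂ] Ell2 X) : bar (T * S) = bar T * bar S := bar_comp S T

theorem bar_one : bar (1 : Ell2 X →L[ℂ] Ell2 X) = 1 := by
  ext1 v
  rw [bar_apply, one_apply_eq_self, one_apply_eq_self, cj_cj]

theorem adjoint_bar (S : Ell2 X →L[ℂ] Ell2 Y) :
    ContinuousLinearMap.adjoint (bar S) = bar (ContinuousLinearMap.adjoint S) := by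
  rw [eq_comm, ContinuousLinearMap.eq_adjoint_iff]
  intro x y
  rw [bar_apply, bar_apply, ← cj_cj y, inner_cj, ← cj_cj x, inner_cj, cj_cj, cj_cj, 
    ContinuousLinearMap.adjoint_inner_right]

theorem bar_rei (e : X ≃ Y) : bar (rei e) = rei e := by
  apply op_ext; intro x
  rw [bar_dl, rei_dl, cj_dl]

theorem bar_rho {G : Type} [Group G] (g : G) : bar (rho g) = rho g := bar_rei _

end Vale.Agent.P092.H160
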