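import Vale.Agent.P092.H160.Assembly

/-!
Tightness of the frame gives a lower bound of the fourth power sums; heights as suprema of
coordinates.
-/

set_option linter.all false

open scoped InnerProductSpace
open Filter Topology ContinuousLinearMap

namespace Vale.Agent.P092.H160

variable {Γ Λ : Type} [Group Γ] [Group Λ]

theorem summable_p4 (ξ : Ell2 Λ) (h1 : ‖ξ‖ = 1) : Summable fun s => ‖ξ s‖ ^ 4 := by
  refine Summable.of_nonneg_of_le (fun _ => by positivity) (fun s => ?_) (summable_sq ξ)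
  have h2 : ‖ξ s‖ ≤ 1 := h1 ▸ norm_coord_le ξ s
  have h3 : ‖ξ s‖ ^ 2 ≤ 1 := by nlinarith [norm_nonneg (ξ s)]
  nlinarith [sq_nonneg (‖ξ s‖), norm_nonneg (ξ s)]

open Classical in
/-- A lower bound of the fourth power sum of a unit vector which is nearly supported on `N`
points. -/
theorem p4_vec {ξ : Ell2 Λ} (h1 : ‖ξ‖ = 1) {N : ℕ} {F : Finset Λ} {η : Ell2 Λ} (hF : F.card ≤ N)
    (hη : ∀ x ∉ F, η x = 0) (hd : ‖ξ - η‖ ≤ 1 / 2) :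
    9 / (16 * (N + 1)) ≤ ∑' s, ‖ξ s‖ ^ 4 := by
  have h2 : 3 / 4 ≤ ∑ s ∈ F, ‖ξ s‖ ^ 2 := by
    have h3 : HasSum (fun s => ‖ξ s‖ ^ 2) 1 := by
      have := (summable_sq ξ).hasSum
      rw [← norm_sq, h1] at this
      simpa using this
    have h4 : HasSum (fun s => if s ∈ F then ‖ξ s‖ ^ 2 else 0) (∑ s ∈ F, ‖ξ s‖ ^ 2) := by
      have h5 : HasSum (fun s => if s ∈ F then ‖ξ s‖ ^ 2 else 0)
          (∑ s ∈ F, (if s ∈ F then ‖ξ s‖ ^ 2 else 0)) :=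
        hasSum_sum_of_ne_finset_zero (fun d hd => if_neg hd)
      rwa [Finset.sum_congr rfl fun d hd => if_pos hd] at h5
    have h6 := h3.sub h4
    have h7 : HasSum (fun s => ‖(ξ - η) s‖ ^ 2) (‖ξ - η‖ ^ 2) := by
      rw [norm_sq]
      exact (summable_sq _).hasSum
    have h8 : 1 - ∑ s ∈ F, ‖ξ s‖ ^ 2 ≤ ‖ξ - η‖ ^ 2 := by
      refine hasSum_le (fun s => ?_) h6 h7
      by_cases hs : s ∈ F
      · rw [if_pos hs, sub_self]; positivity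
      · rw [if_neg hs, sub_zero]
        have : (ξ - η) s = ξ s := by
          change ξ s - η s = ξ s
          rw [hη s hs, sub_zero]
        rw [this]
    have h9 : ‖ξ - η‖ ^ 2 ≤ (1 / 2) ^ 2 := pow_le_pow_left₀ (norm_nonneg _) hd 2
    linarith
  have h3 : (∑ s ∈ F, ‖ξ s‖ ^ 2) ^ 2 ≤ F.card * ∑ s ∈ F, ‖ξ s‖ ^ 4 := by
    have := sq_sum_le_card_mul_sum_sq (s := F) (f := fun s => ‖ξ s‖ ^ 2)
    refine this.trans (le_of_eq ?_)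
    congr 1
    refine Finset.sum_congr rfl fun s _ => ?_
    ring
  have h4 : ∑ s ∈ F, ‖ξ s‖ ^ 4 ≤ ∑' s, ‖ξ s‖ ^ 4 :=
    (summable_p4 ξ h1).sum_le_tsum F fun _ _ => by positivity
  have h5 : (F.card : ℝ) ≤ N := by exact_mod_cast hF
  have h6 : 0 ≤ ∑ s ∈ F, ‖ξ s‖ ^ 4 := Finset.sum_nonneg fun _ _ => by positivity
  have h7 : (9 : ℝ) / 16 ≤ (N + 1) * ∑' s, ‖ξ s‖ ^ 4 := by
    calc (9 : ℝ) / 16 = (3 / 4) ^ 2 := by norm_num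
      _ ≤ (∑ s ∈ F, ‖ξ s‖ ^ 2) ^ 2 := pow_le_pow_left₀ (by norm_num) h2 2
      _ ≤ F.card * ∑ s ∈ F, ‖ξ s‖ ^ 4 := h3
      _ ≤ (N + 1) * ∑' s, ‖ξ s‖ ^ 4 := by
          refine mul_le_mul (by linarith) h4 h6 (by positivity)
  rw [div_le_iff₀ (by positivity)]
  linarith

theorem p4_of_tight {α : Γ →* (Ell2 Λ →L[ℂ] Ell2 Λ)} (hα : Frame α)
    (h : ∀ ε > (0 : ℝ), ∃ N : ℕ, ∀ ξ ∈ Set.range (fun g : Γ => α g (dl 1)),
      ∃ (F : Finset Λ) (η : Ell2 Λ), F.card ≤ N ∧ (∀ x ∉ F, η x = 0) ∧ ‖ξ - η‖ ≤ ε) :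
    ∃ c : ℝ, 0 < c ∧ ∀ g, c ≤ p4 α g := by
  obtain ⟨N, hN⟩ := h (1 / 2) (by norm_num)
  refine ⟨9 / (16 * (N + 1)), by positivity, fun g => ?_⟩
  obtain ⟨F, η, hF, hη, hd⟩ := hN _ ⟨g, rfl⟩
  exact p4_vec (by rw [hα.reg.norm_map, norm_dl]) hF hη hd

theorem tr_mul_star_uu (T : LG Λ) (s : Λ) :
    tr (T * star (uu s)) = (T : Ell2 Λ →L[ℂ] Ell2 Λ) (dl 1) s := by
  rw [tr_eq, star_uu]
  change ⟪(dl 1 : Ell2 Λ), (T : Ell2 Λ →L[ℂ] Ell2 Λ) (lam s⁻¹ (dl 1))⟫_ℂ = _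
  have h1 : (lam s⁻¹ (dl 1) : Ell2 Λ) = rho s (dl 1) := by
    rw [lam_dl, rho_dl, mul_one, one_mul]
  have h2 : (T : Ell2 Λ →L[ℂ] Ell2 Λ) (rho s (dl 1)) =
      rho s ((T : Ell2 Λ →L[ℂ] Ell2 Λ) (dl 1)) :=
    congrArg (fun L : Ell2 Λ →L[ℂ] Ell2 Λ => L (dl 1)) (LG_comm_rho T.2 s)
  rw [h1, h2, inner_dl, rho_apply, one_mul]

theorem height_eq (T : LG Λ) : height T = ⨆ s, ‖((T : Ell2 Λ →L[ℂ] Ell2 Λ) (dl 1) : Ell2 Λ) s‖ := by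
  rw [height]
  simp only [tr_mul_star_uu]

end Vale.Agent.P092.H160
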